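import Vale.Agent.P030.H914.KZWProof
import Vale.Agent.P030.H579.TwFin

/-!
# P030: the 2-adic place of the frozen design, unconditionally
-/

namespace Vale.Agent.P030.H914

open Vale.Agent.P030.T Vale.Agent.P030.H579

/-- **the power of two**: `StTW` for the frozen design -/
theorem stTW (c0 : ℕ) : StTW parA c0 (13945 / 4 * Real.log 2) := stTW_F (kRowIn c0)

end Vale.Agent.P030.H914
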