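import Mathlib

/-!
# P030, the 2-adic place: the tropical determinant bound

Over a field with an ultrametric norm: if `‖M i j‖ ≤ A i * B j` then `‖det M‖ ≤ ∏ A * ∏ B`; rows
(columns) which are integral combinations of the rows of `N` do not hurt; a correction of the
form `T * V` (sum of rank one matrices) may violate the bound, each rank one piece `i` has to pay
`a i * b i ≥ 1` only once (`det_norm_le_border`).
-/

namespace Vale.Agent.P030.H914

open Finset

variable {K : Type*} [NormedField K] [IsUltrametricDist K]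
variable {n m : Type*} [Fintype n] [DecidableEq n] [Fintype m] [DecidableEq m]

theorem norm_sum_le_of {ι : Type*} (s : Finset ι) (f : ι → K) {C : ℝ} (hC : 0 ≤ C)
    (h : ∀ i ∈ s, ‖f i‖ ≤ C) : ‖∑ i ∈ s, f i‖ ≤ C :=
  IsUltrametricDist.norm_sum_le_of_forall_le_of_nonneg hC h

/-- **tropical bound** -/
theorem det_norm_le (M : Matrix n n K) (A B : n → ℝ) (hA : ∀ i, 0 ≤ A i) (hB : ∀ j, 0 ≤ B j)
    (h : ∀ i j, ‖M i j‖ ≤ A i * B j) : ‖M.det‖ ≤ (∏ i, A i) * ∏ j, B j := by
  rw [Matrix.det_apply]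
  refine norm_sum_le_of _ _ (mul_nonneg (prod_nonneg fun i _ => hA i)
    (prod_nonneg fun i _ => hB i)) fun σ _ => ?_
  have h1 : ‖Equiv.Perm.sign σ • ∏ i, M (σ i) i‖ = ∏ i, ‖M (σ i) i‖ := by
    rcases Int.units_eq_one_or (Equiv.Perm.sign σ) with hs | hs <;> rw [hs] <;> simp
  rw [h1]
  calc ∏ i, ‖M (σ i) i‖ ≤ ∏ i, (A (σ i) * B i) :=
        prod_le_prod (fun i _ => norm_nonneg _) fun i _ => h _ _
    _ = (∏ i, A (σ i)) * ∏ i, B i := prod_mul_distrib
    _ = (∏ i, A i) * ∏ i, B i := by rw [Equiv.prod_comp σ A]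

/-- an integral matrix has an integral determinant -/
theorem det_norm_le_one (U : Matrix n n K) (h : ∀ i j, ‖U i j‖ ≤ 1) : ‖U.det‖ ≤ 1 := by
  simpa using det_norm_le U (fun _ => 1) (fun _ => 1) (fun _ => zero_le_one)
    (fun _ => zero_le_one) (by simpa using h)

/-- **tropical bound after an integral change of the rows** -/
theorem det_norm_le_of_rows (M U N : Matrix n n K) (hM : M = U * N) (hU : ∀ i j, ‖U i j‖ ≤ 1)
    (A B : n → ℝ) (hA : ∀ i, 0 ≤ A i) (hB : ∀ j, 0 ≤ B j)
    (h : ∀ i j, ‖N i j‖ ≤ A i * B j) : ‖M.det‖ ≤ (∏ i, A i) * ∏ j, B j := by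
  rw [hM, Matrix.det_mul, norm_mul]
  calc ‖U.det‖ * ‖N.det‖ ≤ 1 * ‖N.det‖ :=
        mul_le_mul_of_nonneg_right (det_norm_le_one U hU) (norm_nonneg _)
    _ ≤ _ := by rw [one_mul]; exact det_norm_le N A B hA hB h

/-- **tropical bound with low rank corrections**: the piece `i` of the correction `T * V` is paid
only once, with the factor `a i * b i`. -/
theorem det_norm_le_border (M T V) (A B : n → ℝ) (a b : m → ℝ) (hA : ∀ i, 0 ≤ A i)
    (hB : ∀ j, 0 ≤ B j) (ha : ∀ i, 0 ≤ a i) (hb : ∀ i, 0 ≤ b i) (hab : ∀ i, 1 ≤ a i * b i)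
    (hM : ∀ i j, ‖(M : Matrix n n K) i j‖ ≤ A i * B j)
    (hT : ∀ i k, ‖(T : Matrix n m K) i k‖ ≤ A i * a k)
    (hV : ∀ k j, ‖(V : Matrix m n K) k j‖ ≤ b k * B j) :
    ‖(M + T * V).det‖ ≤ (∏ i, A i) * (∏ j, B j) * ∏ k, (a k * b k) := by
  have h1 : (M + T * V).det = (Matrix.fromBlocks M T (-V) 1).det := by
    rw [Matrix.det_fromBlocks_one₂₂]
    congr 1
    rw [Matrix.mul_neg, sub_neg_eq_add]
  rw [h1]
  have h2 := det_norm_le (Matrix.fromBlocks M T (-V) 1) (Sum.elim A b) (Sum.elim B a)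
    (by rintro (i | i) <;> simp [hA, hb]) (by rintro (i | i) <;> simp [hB, ha])
    (by
      rintro (i | i) (j | j)
      · simpa using hM i j
      · simpa using hT i j
      · simpa using hV i j
      · rcases eq_or_ne i j with rfl | hij
        · simpa [mul_comm] using hab i
        · simpa [Matrix.one_apply_ne hij] using mul_nonneg (hb i) (ha j))
  refine h2.trans (le_of_eq ?_)
  simp only [Fintype.prod_sum_type, Sum.elim_inl, Sum.elim_inr]
  rw [prod_mul_distrib]
  ring

/-- **Cauchy–Binet form**: if every column of `M` is an integral combination of the columns of a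
rectangular matrix `N` (columns indexed by `E`), then `‖det M‖` is at most the maximum of the
tropical bounds of the square submatrices of `N`. -/
theorem det_norm_le_of_cols {E : Type*} [Fintype E] [DecidableEq E]
    (M : Matrix n n K) (N : Matrix n E K) (P : Matrix E n K) (hM : M = N * P)
    (hP : ∀ i j, ‖P i j‖ ≤ 1) (C : ℝ) (hC : 0 ≤ C)
    (h : ∀ τ : n → E, Function.Injective τ → ‖(N.submatrix id τ).det‖ ≤ C) : ‖M.det‖ ≤ C := by
  have h1 : M.det = ∑ τ : n → E, (∏ j, P (τ j) j) * (N.submatrix id τ).det := by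
    have : M = Matrix.of fun i j => ∑ e, P e j * N i e := by
      ext i j
      rw [hM, Matrix.mul_apply]
      exact sum_congr rfl fun e _ => mul_comm _ _
    rw [this, Matrix.det_apply]
    simp only [Matrix.of_apply, Finset.prod_univ_sum, Fintype.piFinset_univ]
    simp_rw [Finset.smul_sum]
    rw [Finset.sum_comm]
    refine sum_congr rfl fun τ _ => ?_
    rw [Matrix.det_apply, Finset.mul_sum]
    refine sum_congr rfl fun σ _ => ?_
    rw [Finset.prod_mul_distrib]
    simp only [Matrix.submatrix_apply, id]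
    rw [mul_smul_comm]
  rw [h1]
  refine norm_sum_le_of _ _ hC fun τ _ => ?_
  rw [norm_mul, norm_prod]
  by_cases hτ : Function.Injective τ
  · calc (∏ j, ‖P (τ j) j‖) * ‖(N.submatrix id τ).det‖ ≤ 1 * C := by
          refine mul_le_mul ?_ (h τ hτ) (norm_nonneg _) zero_le_one
          exact prod_le_one (fun _ _ => norm_nonneg _) fun j _ => hP _ _
      _ = C := one_mul C
  · have : (N.submatrix id τ).det = 0 := by
      simp only [Function.Injective, not_forall] at hτ
      obtain ⟨i, j, hij, hne⟩ := hτ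
      exact Matrix.det_zero_of_column_eq hne fun k => by simp [hij]
    rw [this, norm_zero, mul_zero]
    exact hC

end Vale.Agent.P030.H914
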