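import Vale.Agent.P030.H914.Ser

/-!
# P030, the 2-adic place: continuation of the rational solution

`bb n` = coefficients of `B2`, `ph k = Σ' b_n (-1)^n C(n,k) 2^k` = coefficients of `E = B2(w)` in
`X = -(1+w)/2`.  `‖ph k‖ ≤ 4 (k+1)² 8^{-k}`; near `c0` : `B - x2 K = (1/(1-t)) E(t/(1-t))`.
-/

namespace Vale.Agent.P030.H914

open PowerSeries Finset Vale.Agent.P030.T

/-! ### the size of `b_n` -/

theorem norm_factorial_double (k : ℕ) :
    ‖(((2 * k).factorial : ℕ) : ℚ_[2])‖ = (1 / 2) ^ k * ‖((k.factorial : ℕ) : ℚ_[2])‖ := by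
  induction k with
  | zero => simp
  | succ k ih =>
    have e : 2 * (k + 1) = (2 * k + 1) + 1 := by ring
    rw [e, Nat.factorial_succ, Nat.factorial_succ (2 * k), Nat.factorial_succ k]
    rw [Nat.cast_mul, Nat.cast_mul, Nat.cast_mul, norm_mul, norm_mul, norm_mul, ih,
      norm_odd (by omega : (2 * k + 1) % 2 = 1)]
    have e2 : ((2 * k + 1 + 1 : ℕ) : ℚ_[2]) = 2 * ((k + 1 : ℕ) : ℚ_[2]) := by push_cast; ring
    rw [e2, norm_mul, norm_two, pow_succ]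
    ring

theorem norm_factorial_le (m : ℕ) :
    ‖((m.factorial : ℕ) : ℚ_[2])‖ ≤ (m + 1) * (1 / 2) ^ m := by
  induction m using Nat.strong_induction_on with
  | _ m ih =>
    rcases Nat.even_or_odd' m with ⟨k, rfl | rfl⟩
    · rcases eq_or_ne k 0 with rfl | hk
      · simp
      · have h1 := ih k (by omega)
        rw [norm_factorial_double]
        have h2 : (0 : ℝ) ≤ (1 / 2) ^ k := by positivity
        calc (1 / 2 : ℝ) ^ k * ‖((k.factorial : ℕ) : ℚ_[2])‖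
            ≤ (1 / 2) ^ k * ((k + 1) * (1 / 2) ^ k) := mul_le_mul_of_nonneg_left h1 h2
          _ = (k + 1) * (1 / 2) ^ (2 * k) := by rw [two_mul k, pow_add]; ring
          _ ≤ ((2 * k : ℕ) + 1) * (1 / 2) ^ (2 * k) := by
              refine mul_le_mul_of_nonneg_right ?_ (by positivity)
              push_cast
              have : (0 : ℝ) ≤ k := Nat.cast_nonneg k
              linarith
    · have h1 := ih k (by omega)
      rw [Nat.factorial_succ, Nat.cast_mul, norm_mul, norm_odd (by omega : (2 * k + 1) % 2 = 1),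
        one_mul, norm_factorial_double]
      have h2 : (0 : ℝ) ≤ (1 / 2) ^ k := by positivity
      calc (1 / 2 : ℝ) ^ k * ‖((k.factorial : ℕ) : ℚ_[2])‖
          ≤ (1 / 2) ^ k * ((k + 1) * (1 / 2) ^ k) := mul_le_mul_of_nonneg_left h1 h2
        _ = ((2 * k + 1 : ℕ) + 1) * (1 / 2) ^ (2 * k + 1) := by
            rw [pow_succ, two_mul k, pow_add]; push_cast; ring

/-- coefficients of `B2` in `ℚ_[2]` -/
noncomputable def bb (n : ℕ) : ℚ_[2] := ((cB2 n : ℚ) : ℚ_[2])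

theorem bb_zero : bb 0 = 0 := by simp [bb, cB2]

theorem bb_one : bb 1 = -1 / 4 := by simp [bb, cB2]

theorem bb_succ (n : ℕ) : bb (n + 2) = ((n : ℚ_[2]) + 1) ^ 2 * bb n / ((n : ℚ_[2]) + 2) ^ 2 := by
  simp [bb, cB2]

theorem cast_add_two_ne (n : ℕ) : (n : ℚ_[2]) + 2 ≠ 0 := by
  have : ((n + 2 : ℕ) : ℚ_[2]) ≠ 0 := by exact_mod_cast Nat.succ_ne_zero (n + 1)
  push_cast at this
  exact this

theorem bb_rec (n : ℕ) :
    ((n : ℚ_[2]) + 2) ^ 2 * bb (n + 2) = ((n : ℚ_[2]) + 1) ^ 2 * bb n := by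
  rw [bb_succ, mul_div_cancel₀]
  exact pow_ne_zero 2 (cast_add_two_ne n)

theorem bb_even (m : ℕ) : bb (2 * m) = 0 := by
  induction m with
  | zero => exact bb_zero
  | succ m ih => rw [mul_add, mul_one, bb_succ, ih]; simp

theorem norm_bb_odd (m : ℕ) :
    ‖bb (2 * m + 1)‖ = 4 * (1 / 4) ^ m * ‖((m.factorial : ℕ) : ℚ_[2])‖ ^ 2 := by
  induction m with
  | zero =>
    rw [mul_zero, zero_add, bb_one]
    have h4 : ‖(4 : ℚ_[2])‖ = 1 / 4 := by
      have : (4 : ℚ_[2]) = 2 * 2 := by norm_num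
      rw [this, norm_mul, norm_two]; norm_num
    rw [norm_div, norm_neg, norm_one, h4]
    norm_num
  | succ m ih =>
    have e : 2 * (m + 1) + 1 = (2 * m + 1) + 2 := by ring
    rw [e, bb_succ, norm_div, norm_mul, ih]
    have e1 : (((2 * m + 1 : ℕ) : ℚ_[2]) + 1) = 2 * ((m + 1 : ℕ) : ℚ_[2]) := by push_cast; ring
    have e2 : (((2 * m + 1 : ℕ) : ℚ_[2]) + 2) = ((2 * m + 3 : ℕ) : ℚ_[2]) := by push_cast; ring
    rw [e1, e2, norm_pow, norm_pow, norm_mul, norm_two,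
      norm_odd (by omega : (2 * m + 3) % 2 = 1), Nat.factorial_succ, Nat.cast_mul, norm_mul]
    rw [pow_succ]
    ring

theorem norm_bb (n : ℕ) : ‖bb n‖ ≤ 4 * (n + 1) ^ 2 * (1 / 4) ^ n := by
  rcases Nat.even_or_odd' n with ⟨m, rfl | rfl⟩
  · rw [bb_even, norm_zero]; positivity
  · rw [norm_bb_odd]
    have h := norm_factorial_le m
    have h2 : ‖((m.factorial : ℕ) : ℚ_[2])‖ ^ 2 ≤ ((m + 1) * (1 / 2) ^ m) ^ 2 :=
      pow_le_pow_left₀ (norm_nonneg _) h 2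
    calc 4 * (1 / 4 : ℝ) ^ m * ‖((m.factorial : ℕ) : ℚ_[2])‖ ^ 2
        ≤ 4 * (1 / 4 : ℝ) ^ m * ((m + 1) * (1 / 2) ^ m) ^ 2 :=
          mul_le_mul_of_nonneg_left h2 (by positivity)
      _ = 4 * ((2 * m + 1 : ℕ) + 1) ^ 2 * (1 / 4) ^ (2 * m + 1) := by
          have e : ((1 / 2 : ℝ) ^ m) ^ 2 = (1 / 4) ^ m := by
            rw [← pow_mul, mul_comm m 2, pow_mul]; norm_num
          rw [mul_pow, e, pow_succ (1 / 4 : ℝ) (2 * m), two_mul m, pow_add]
          push_cast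
          ring

/-! ### summability -/

theorem sq_quarter_anti {k n : ℕ} (h : k ≤ n) :
    ((n : ℝ) + 1) ^ 2 * (1 / 4) ^ n ≤ ((k : ℝ) + 1) ^ 2 * (1 / 4) ^ k := by
  induction n, h using Nat.le_induction with
  | base => exact le_refl _
  | succ n hn ih =>
    refine le_trans ?_ ih
    push_cast
    rw [pow_succ (1 / 4 : ℝ) n]
    have h0 : (0 : ℝ) ≤ n := Nat.cast_nonneg n
    have h1 : (0 : ℝ) < (1 / 4) ^ n := by positivity
    nlinarith [mul_nonneg (mul_nonneg h0 h0) h1.le, mul_nonneg h0 h1.le]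

theorem summable_sq_geom {r : ℝ} (h0 : 0 ≤ r) (h1 : r < 1) (C : ℝ) :
    Summable fun n : ℕ => C * ((n : ℝ) + 1) ^ 2 * r ^ n := by
  have h : ‖r‖ < 1 := by rwa [Real.norm_eq_abs, abs_of_nonneg h0]
  have s2 := summable_pow_mul_geometric_of_norm_lt_one 2 h
  have s1 := summable_pow_mul_geometric_of_norm_lt_one 1 h
  have s0 := summable_pow_mul_geometric_of_norm_lt_one 0 h
  have := ((s2.add (s1.mul_left 2)).add s0).mul_left C
  refine this.congr fun n => ?_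
  ring

theorem summable_of_sq {f : ℕ → ℚ_[2]} {r C : ℝ} (h0 : 0 ≤ r) (h1 : r < 1)
    (h : ∀ n, ‖f n‖ ≤ C * ((n : ℝ) + 1) ^ 2 * r ^ n) : Summable f :=
  Summable.of_norm_bounded (summable_sq_geom h0 h1 C) h

theorem norm_neg_one_pow (n : ℕ) : ‖((-1 : ℚ_[2])) ^ n‖ = 1 := by simp

theorem norm_term_le (k n : ℕ) :
    ‖bb n * (-1) ^ n * (n.choose k : ℚ_[2]) * 2 ^ k‖ ≤ ‖bb n‖ * (1 / 2) ^ k := by
  rw [norm_mul, norm_mul, norm_mul, norm_neg_one_pow, norm_pow, norm_two, mul_one]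
  refine mul_le_mul_of_nonneg_right ?_ (by positivity)
  exact mul_le_of_le_one_right (norm_nonneg _) (norm_nat_le _)

/-- coefficients of `E` in `X` -/
noncomputable def ph (k : ℕ) : ℚ_[2] := ∑' n, bb n * (-1) ^ n * (n.choose k : ℚ_[2]) * 2 ^ k

theorem ph_summable (k : ℕ) :
    Summable fun n => bb n * (-1) ^ n * (n.choose k : ℚ_[2]) * 2 ^ k := by
  refine summable_of_sq (r := 1 / 4) (C := 4) (by norm_num) (by norm_num) fun n => ?_
  refine (norm_term_le k n).trans ?_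
  calc ‖bb n‖ * (1 / 2) ^ k ≤ ‖bb n‖ * 1 :=
        mul_le_mul_of_nonneg_left (pow_le_one₀ (by norm_num) (by norm_num)) (norm_nonneg _)
    _ ≤ _ := by rw [mul_one]; exact norm_bb n

theorem norm_ph (k : ℕ) : ‖ph k‖ ≤ 4 * (k + 1) ^ 2 * (1 / 8) ^ k := by
  unfold ph
  refine (IsUltrametricDist.norm_tsum_le _).trans (ciSup_le fun n => ?_)
  rcases lt_or_ge n k with h | h
  · rw [Nat.choose_eq_zero_of_lt h]; simp; positivity
  · refine (norm_term_le k n).trans ?_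
    calc ‖bb n‖ * (1 / 2) ^ k ≤ (4 * (n + 1) ^ 2 * (1 / 4) ^ n) * (1 / 2) ^ k :=
          mul_le_mul_of_nonneg_right (norm_bb n) (by positivity)
      _ = 4 * (((n : ℝ) + 1) ^ 2 * (1 / 4) ^ n) * (1 / 2) ^ k := by ring
      _ ≤ 4 * (((k : ℝ) + 1) ^ 2 * (1 / 4) ^ k) * (1 / 2) ^ k := by
          refine mul_le_mul_of_nonneg_right ?_ (by positivity)
          exact mul_le_mul_of_nonneg_left (sq_quarter_anti h) (by norm_num)
      _ = 4 * (k + 1) ^ 2 * (1 / 8) ^ k := by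
          have : (1 / 8 : ℝ) = (1 / 4) * (1 / 2) := by norm_num
          rw [this, mul_pow]; ring

/-! ### the binomial identity -/

theorem choose_a (n j : ℕ) :
    ((j : ℚ_[2]) + 1) * (n.choose (j + 1) : ℚ_[2]) = ((n : ℚ_[2]) - j) * (n.choose j : ℚ_[2]) := by
  rcases lt_or_ge n j with h | h
  · rw [Nat.choose_eq_zero_of_lt h, Nat.choose_eq_zero_of_lt (by omega)]; simp
  · have := Nat.choose_succ_right_eq n j
    have h2 : ((n.choose (j + 1) * (j + 1) : ℕ) : ℚ_[2]) = ((n.choose j * (n - j) : ℕ) : ℚ_[2]) := by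
      rw [this]
    push_cast [Nat.cast_sub h] at h2
    linear_combination h2

theorem choose_d (n m : ℕ) :
    (n : ℚ_[2]) * ((n - 1).choose m : ℚ_[2]) = ((n : ℚ_[2]) - m) * (n.choose m : ℚ_[2]) := by
  rcases n with _ | n
  · rcases m with _ | m <;> simp
  · have h := Nat.add_one_mul_choose_eq n m
    have h2 : (((n + 1) * n.choose m : ℕ) : ℚ_[2]) = (((n + 1).choose (m + 1) * (m + 1) : ℕ) : ℚ_[2]) := by
      rw [← h]
    have h3 := choose_a (n + 1) m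
    push_cast at h2 h3 ⊢
    linear_combination h2 + h3

theorem key_id (n k : ℕ) :
    2 * ((k : ℚ_[2]) + 1) ^ 2 * (n.choose (k + 1) : ℚ_[2])
      + (3 * (k : ℚ_[2]) ^ 2 + 3 * k + 1) * (n.choose k : ℚ_[2])
      + (k : ℚ_[2]) ^ 2 * (n.choose (k - 1) : ℚ_[2])
    = ((n : ℚ_[2]) + 1) ^ 2 * ((n + 1).choose k : ℚ_[2])
      - (n : ℚ_[2]) ^ 2 * ((n - 1).choose k : ℚ_[2]) := by
  rcases k with _ | j
  · simp; ring
  · have h1 := choose_a n (j + 1)
    have h2 := choose_a n j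
    have h3 : ((n + 1).choose (j + 1) : ℚ_[2]) = (n.choose j : ℚ_[2]) + (n.choose (j + 1) : ℚ_[2]) := by
      rw [Nat.choose_succ_succ]; push_cast; ring
    have h4 := choose_d n (j + 1)
    rw [h3, Nat.add_sub_cancel]
    push_cast at h1 h2 h4 ⊢
    linear_combination (2 * ((j : ℚ_[2]) + 2)) * h1 + ((n : ℚ_[2]) + j + 2) * h2 + (n : ℚ_[2]) * h4

/-! ### the recurrence of `ph` -/

/-- the left hand side of the recurrence -/
noncomputable def rr (k : ℕ) : ℚ_[2] :=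
  ((k : ℚ_[2]) + 1) ^ 2 * ph (k + 1) + (3 * (k : ℚ_[2]) ^ 2 + 3 * k + 1) * ph k
    + 2 * (k : ℚ_[2]) ^ 2 * ph (k - 1)

theorem summable_aux (k : ℕ) :
    Summable fun n : ℕ => (n : ℚ_[2]) ^ 2 * bb n * (-1) ^ n * ((n - 1).choose k : ℚ_[2]) := by
  refine summable_of_sq (r := 1 / 4) (C := 4) (by norm_num) (by norm_num) fun n => ?_
  rw [norm_mul, norm_mul, norm_mul, norm_neg_one_pow, norm_pow, mul_one]
  calc ‖(n : ℚ_[2])‖ ^ 2 * ‖bb n‖ * ‖((n - 1).choose k : ℚ_[2])‖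
      ≤ 1 * ‖bb n‖ * 1 := by
        refine mul_le_mul ?_ (norm_nat_le _) (norm_nonneg _) (by positivity)
        exact mul_le_mul_of_nonneg_right (pow_le_one₀ (norm_nonneg _) (norm_nat_le _))
          (norm_nonneg _)
    _ ≤ _ := by rw [one_mul, mul_one]; exact norm_bb n

theorem rr_eq (k : ℕ) : rr k = if k = 0 then -1 / 4 else 0 := by
  have s1 := (ph_summable (k + 1)).hasSum
  have s0 := (ph_summable k).hasSum
  have sm := (ph_summable (k - 1)).hasSum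
  have h1 : HasSum (fun n => ((k : ℚ_[2]) + 1) ^ 2 *
        (bb n * (-1) ^ n * (n.choose (k + 1) : ℚ_[2]) * 2 ^ (k + 1))
      + (3 * (k : ℚ_[2]) ^ 2 + 3 * k + 1) * (bb n * (-1) ^ n * (n.choose k : ℚ_[2]) * 2 ^ k)
      + 2 * (k : ℚ_[2]) ^ 2 * (bb n * (-1) ^ n * (n.choose (k - 1) : ℚ_[2]) * 2 ^ (k - 1)))
      (rr k) := ((s1.mul_left _).add (s0.mul_left _)).add (sm.mul_left _)
  have e1 : (fun n => ((k : ℚ_[2]) + 1) ^ 2 *
        (bb n * (-1) ^ n * (n.choose (k + 1) : ℚ_[2]) * 2 ^ (k + 1))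
      + (3 * (k : ℚ_[2]) ^ 2 + 3 * k + 1) * (bb n * (-1) ^ n * (n.choose k : ℚ_[2]) * 2 ^ k)
      + 2 * (k : ℚ_[2]) ^ 2 * (bb n * (-1) ^ n * (n.choose (k - 1) : ℚ_[2]) * 2 ^ (k - 1)))
      = fun n => 2 ^ k * (((n + 2 : ℕ) : ℚ_[2]) ^ 2 * bb (n + 2) * (-1) ^ (n + 2)
          * ((n + 2 - 1).choose k : ℚ_[2])
        - (n : ℚ_[2]) ^ 2 * bb n * (-1) ^ n * ((n - 1).choose k : ℚ_[2])) := by
    funext n
    have hk := key_id n k
    have hb := bb_rec n
    have e3 : n + 2 - 1 = n + 1 := rfl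
    rw [e3]
    rcases k with _ | j
    · push_cast at hk hb ⊢
      simp only [pow_zero, pow_succ] at hk ⊢
      linear_combination (bb n * (-1) ^ n) * hk
        - ((-1) ^ n * ((n + 1).choose 0 : ℚ_[2])) * hb
    · rw [Nat.add_sub_cancel] at hk ⊢
      push_cast at hk hb ⊢
      rw [pow_succ (2 : ℚ_[2]) (j + 1), pow_succ (2 : ℚ_[2]) j]
      linear_combination (2 * 2 ^ j * bb n * (-1) ^ n) * hk
        - (2 * 2 ^ j * (-1) ^ n * ((n + 1).choose (j + 1) : ℚ_[2])) * hb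
  rw [e1] at h1
  have h2 := summable_aux k
  have h3 : HasSum (fun n : ℕ => ((n + 2 : ℕ) : ℚ_[2]) ^ 2 * bb (n + 2) * (-1) ^ (n + 2)
      * ((n + 2 - 1).choose k : ℚ_[2]))
      ((∑' n : ℕ, (n : ℚ_[2]) ^ 2 * bb n * (-1) ^ n * ((n - 1).choose k : ℚ_[2]))
        - ∑ n ∈ range 2, (n : ℚ_[2]) ^ 2 * bb n * (-1) ^ n * ((n - 1).choose k : ℚ_[2])) :=
    (hasSum_nat_add_iff' 2).2 h2.hasSum
  have h4 := (h3.sub h2.hasSum).mul_left (2 ^ k)
  have h5 := h1.unique h4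
  rw [h5]
  simp only [sum_range_succ, sum_range_zero, bb_zero, bb_one]
  rcases k with _ | j
  · simp
  · simp

end Vale.Agent.P030.H914
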