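import Vale.Agent.P030.H914.ContZ

/-!
# P030, the 2-adic place: the continuation at `c1` and the evaluation maps

`ev1 G = G (-(1+t)/2)` for series `G` with rapidly decreasing coefficients (`Dc C G`),
`ev0 G = G (t/(1-t))`.  `ev1 E = B2`, `ev0 E = (1-t) (B - x2 K)`, and the theta versions.
-/

namespace Vale.Agent.P030.H914

open PowerSeries Finset Vale.Agent.P030.T

/-! ### binomial inversion -/

theorem alt_sum (n m : ℕ) :
    ∑ k ∈ range (n + 1), ((-1 : ℚ_[2])) ^ k * (n.choose k : ℚ_[2]) * (k.choose m : ℚ_[2])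
      = if n = m then (-1) ^ n else 0 := by
  rcases lt_or_ge n m with h | h
  · rw [if_neg (by omega)]
    refine sum_eq_zero fun k hk => ?_
    rw [Nat.choose_eq_zero_of_lt (show k < m by have := mem_range.1 hk; omega)]
    simp
  · obtain ⟨d, rfl⟩ := Nat.exists_eq_add_of_le h
    have e : range (m + d + 1) = range (m + (d + 1)) := by rw [add_assoc]
    rw [e, sum_range_add]
    have h0 : ∑ k ∈ range m, ((-1 : ℚ_[2])) ^ k * ((m + d).choose k : ℚ_[2])
        * (k.choose m : ℚ_[2]) = 0 := by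
      refine sum_eq_zero fun k hk => ?_
      rw [Nat.choose_eq_zero_of_lt (mem_range.1 hk)]
      simp
    rw [h0, zero_add]
    have h1 : ∀ j ∈ range (d + 1), ((-1 : ℚ_[2])) ^ (m + j) * ((m + d).choose (m + j) : ℚ_[2])
        * ((m + j).choose m : ℚ_[2])
        = ((-1) ^ m * ((m + d).choose m : ℚ_[2])) * (((-1) ^ j * (d.choose j : ℤ) : ℤ) : ℚ_[2]) := by
      intro j hj
      have hj' : j ≤ d := by have := mem_range.1 hj; omega
      have h2 := Nat.choose_mul (n := m + d) (k := m + j) (s := m) (by omega)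
      have e1 : m + d - m = d := by omega
      have e2 : m + j - m = j := by omega
      rw [e1, e2] at h2
      have h3 : (((m + d).choose (m + j) * (m + j).choose m : ℕ) : ℚ_[2])
          = (((m + d).choose m * d.choose j : ℕ) : ℚ_[2]) := by rw [h2]
      push_cast at h3 ⊢
      rw [pow_add]
      linear_combination ((-1) ^ m * (-1) ^ j) * h3
    rw [sum_congr rfl h1, ← mul_sum, ← Int.cast_sum, Int.alternating_sum_range_choose]
    rcases eq_or_ne d 0 with rfl | hd
    · simp
    · rw [if_neg hd, if_neg (by omega)]; simp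

/-- the double series -/
noncomputable def dbl (m : ℕ) (p : ℕ × ℕ) : ℚ_[2] :=
  bb p.1 * (-1) ^ p.1 * (p.1.choose p.2 : ℚ_[2]) * 2 ^ p.2
    * ((-1 / 2) ^ p.2 * (p.2.choose m : ℚ_[2]))

theorem dbl_eq (m n k : ℕ) : dbl m (n, k) = bb n * (-1) ^ n * ((-1) ^ k * (n.choose k : ℚ_[2])
      * (k.choose m : ℚ_[2])) := by
  have e : (2 : ℚ_[2]) ^ k * (-1 / 2) ^ k = (-1) ^ k := by
    rw [← mul_pow]; norm_num
  simp only [dbl]
  linear_combination (bb n * (-1) ^ n * (n.choose k : ℚ_[2]) * (k.choose m : ℚ_[2])) * e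

/-- the majorant -/
noncomputable def maj (p : ℕ × ℕ) : ℝ :=
  (4 * ((p.1 : ℝ) + 1) ^ 2 * (1 / 2) ^ p.1) * (1 / 2 : ℝ) ^ p.2

theorem maj_summable : Summable maj :=
  Summable.mul_of_nonneg (summable_sq_geom (by norm_num) (by norm_num) 4)
      (summable_geometric_of_lt_one (by norm_num) (by norm_num))
      (fun n => by positivity) (fun n => by positivity)

theorem dbl_norm_le (m : ℕ) (p : ℕ × ℕ) : ‖dbl m p‖ ≤ maj p := by
  obtain ⟨n, k⟩ := p
  rw [dbl_eq]
  unfold maj
  rcases lt_or_ge n k with h | h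
  · rw [Nat.choose_eq_zero_of_lt h]
    simp; positivity
  · rw [norm_mul, norm_mul, norm_neg_one_pow, mul_one, norm_mul, norm_mul,
      norm_neg_one_pow, one_mul]
    calc ‖bb n‖ * (‖(n.choose k : ℚ_[2])‖ * ‖(k.choose m : ℚ_[2])‖)
        ≤ ‖bb n‖ * (1 * 1) := by
          refine mul_le_mul_of_nonneg_left ?_ (norm_nonneg _)
          exact mul_le_mul (norm_nat_le _) (norm_nat_le _) (norm_nonneg _) zero_le_one
      _ ≤ 4 * (n + 1) ^ 2 * (1 / 4) ^ n := by rw [mul_one, mul_one]; exact norm_bb n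
      _ = (4 * ((n : ℝ) + 1) ^ 2 * (1 / 2) ^ n) * (1 / 2) ^ n := by
          have : (1 / 4 : ℝ) = (1 / 2) * (1 / 2) := by norm_num
          rw [this, mul_pow]; ring
      _ ≤ (4 * ((n : ℝ) + 1) ^ 2 * (1 / 2) ^ n) * (1 / 2) ^ k := by
          refine mul_le_mul_of_nonneg_left ?_ (by positivity)
          exact pow_le_pow_of_le_one (by norm_num) (by norm_num) h

theorem dbl_summable (m : ℕ) : Summable (dbl m) :=
  Summable.of_norm_bounded maj_summable (dbl_norm_le m)

theorem dbl_row (m n : ℕ) : HasSum (fun k => dbl m (n, k)) (if n = m then bb m else 0) := by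
  have h2 : HasSum (fun k => dbl m (n, k)) (∑ k ∈ range (n + 1), dbl m (n, k)) := by
    refine hasSum_sum_of_ne_finset_zero fun k hk => ?_
    have : n < k := by
      by_contra hlt
      exact hk (mem_range.2 (by omega))
    simp only [dbl, Nat.choose_eq_zero_of_lt this]
    simp
  have h3 : ∑ k ∈ range (n + 1), dbl m (n, k) = if n = m then bb m else 0 := by
    rw [sum_congr rfl fun k _ => dbl_eq m n k, ← mul_sum, alt_sum]
    split_ifs with h
    · subst h
      have : ((-1 : ℚ_[2])) ^ n * (-1) ^ n = 1 := by rw [← mul_pow]; norm_num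
      rw [mul_assoc, this, mul_one]
    · rw [mul_zero]
  rw [← h3]; exact h2

theorem dbl_col (m k : ℕ) :
    HasSum (fun n => dbl m (n, k)) (ph k * (-1 / 2) ^ k * (k.choose m : ℚ_[2])) := by
  have h7 := ((ph_summable k).hasSum).mul_right ((-1 / 2) ^ k * (k.choose m : ℚ_[2]))
  have h8 : ph k * (-1 / 2) ^ k * (k.choose m : ℚ_[2])
      = (∑' n, bb n * (-1) ^ n * (n.choose k : ℚ_[2]) * 2 ^ k)
        * ((-1 / 2) ^ k * (k.choose m : ℚ_[2])) := by
    rw [mul_assoc]; rfl
  rw [h8]
  exact h7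

theorem dbl_total (m : ℕ) : HasSum (dbl m) (bb m) := by
  have ha := (dbl_summable m).hasSum
  have h4 := ha.prod_fiberwise (dbl_row m)
  have h5 : HasSum (fun n => if n = m then bb m else 0) (bb m) := hasSum_ite_eq m (bb m)
  rw [h4.unique h5] at ha
  exact ha

/-- **continuation at `c1`** -/
theorem hasSum_bb (m : ℕ) :
    HasSum (fun k => ph k * (-1 / 2) ^ k * (k.choose m : ℚ_[2])) (bb m) := by
  have h6 : HasSum (fun p : ℕ × ℕ => dbl m (p.2, p.1)) (bb m) :=
    (Equiv.prodComm ℕ ℕ).hasSum_iff.2 (dbl_total m)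
  exact h6.prod_fiberwise fun k => dbl_col m k

end Vale.Agent.P030.H914
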