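import Vale.Agent.P030.H914.Cont

/-!
# P030, the 2-adic place: the continuation at `c0`

`coeff n (serB - x2 serK) = Σ_{k ≤ n} C(n,k) ph k`, `x2 = - ph 0`.
-/

namespace Vale.Agent.P030.H914

open PowerSeries Finset Vale.Agent.P030.T

/-- the 2-adic value of `G/2` -/
noncomputable def x2 : ℚ_[2] := -ph 0

theorem norm_x2 : ‖x2‖ ≤ 4 := by
  unfold x2
  rw [norm_neg]
  simpa using norm_ph 0

/-- binomial transform of `ph` -/
noncomputable def ff (n : ℕ) : ℚ_[2] := ∑ k ∈ range (n + 1), (n.choose k : ℚ_[2]) * ph k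

theorem ff_zero : ff 0 = -x2 := by simp [ff, x2]

theorem ff_one : ff 1 = -1 / 4 := by
  have h := rr_eq 0
  simp only [rr] at h
  simp only [ff, sum_range_succ, sum_range_zero]
  norm_num at h ⊢
  linear_combination h

theorem ff_rec (n : ℕ) :
    ((n : ℚ_[2]) + 2) ^ 2 * ff (n + 2) = ((n : ℚ_[2]) + 1) ^ 2 * ff n - 1 / 4 := by
  have hS : ∑ k ∈ range (n + 2), ((n + 1).choose k : ℚ_[2]) * rr k = -1 / 4 := by
    rw [sum_eq_single 0]
    · rw [rr_eq]; simp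
    · intro k _ hk
      rw [rr_eq, if_neg hk, mul_zero]
    · intro h
      exact absurd (mem_range.2 (by omega)) h
  have hA : ∑ k ∈ range (n + 2), ((n + 1).choose k : ℚ_[2]) * (((k : ℚ_[2]) + 1) ^ 2 * ph (k + 1))
      = ∑ k ∈ range (n + 3), ((n + 1).choose (k - 1) : ℚ_[2]) * ((k : ℚ_[2]) ^ 2 * ph k) := by
    rw [sum_range_succ' _ (n + 2)]
    simp
  have hC : ∑ k ∈ range (n + 2), ((n + 1).choose k : ℚ_[2]) * (2 * (k : ℚ_[2]) ^ 2 * ph (k - 1))
      = ∑ k ∈ range (n + 3), ((n + 1).choose (k + 1) : ℚ_[2])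
        * (2 * ((k : ℚ_[2]) + 1) ^ 2 * ph k) := by
    rw [sum_range_succ' _ (n + 1), sum_range_succ _ (n + 2), sum_range_succ _ (n + 1)]
    rw [Nat.choose_eq_zero_of_lt (by omega : n + 1 < n + 1 + 1),
      Nat.choose_eq_zero_of_lt (by omega : n + 1 < n + 2 + 1)]
    simp
  have hB : ∑ k ∈ range (n + 2), ((n + 1).choose k : ℚ_[2])
        * ((3 * (k : ℚ_[2]) ^ 2 + 3 * k + 1) * ph k)
      = ∑ k ∈ range (n + 3), ((n + 1).choose k : ℚ_[2])
        * ((3 * (k : ℚ_[2]) ^ 2 + 3 * k + 1) * ph k) := by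
    rw [sum_range_succ _ (n + 2), Nat.choose_eq_zero_of_lt (by omega : n + 1 < n + 2)]
    simp
  have hF2 : ff (n + 2) = ∑ k ∈ range (n + 3), ((n + 2).choose k : ℚ_[2]) * ph k := rfl
  have hF0 : ff n = ∑ k ∈ range (n + 3), (n.choose k : ℚ_[2]) * ph k := by
    rw [sum_range_succ _ (n + 2), sum_range_succ _ (n + 1),
      Nat.choose_eq_zero_of_lt (by omega : n < n + 2),
      Nat.choose_eq_zero_of_lt (by omega : n < n + 1)]
    simp [ff]
  have hS2 : ∑ k ∈ range (n + 2), ((n + 1).choose k : ℚ_[2]) * rr k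
      = ∑ k ∈ range (n + 2), ((n + 1).choose k : ℚ_[2]) * (((k : ℚ_[2]) + 1) ^ 2 * ph (k + 1))
      + ∑ k ∈ range (n + 2), ((n + 1).choose k : ℚ_[2])
        * ((3 * (k : ℚ_[2]) ^ 2 + 3 * k + 1) * ph k)
      + ∑ k ∈ range (n + 2), ((n + 1).choose k : ℚ_[2]) * (2 * (k : ℚ_[2]) ^ 2 * ph (k - 1)) := by
    rw [← sum_add_distrib, ← sum_add_distrib]
    refine sum_congr rfl fun k _ => ?_
    unfold rr; ring
  rw [hS, hA, hB, hC] at hS2
  rw [hF2, hF0]
  have hfin : ((n : ℚ_[2]) + 2) ^ 2 * ∑ k ∈ range (n + 3), ((n + 2).choose k : ℚ_[2]) * ph k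
      - ((n : ℚ_[2]) + 1) ^ 2 * ∑ k ∈ range (n + 3), (n.choose k : ℚ_[2]) * ph k
      = ∑ k ∈ range (n + 3), ((n + 1).choose (k - 1) : ℚ_[2]) * ((k : ℚ_[2]) ^ 2 * ph k)
      + ∑ k ∈ range (n + 3), ((n + 1).choose k : ℚ_[2])
        * ((3 * (k : ℚ_[2]) ^ 2 + 3 * k + 1) * ph k)
      + ∑ k ∈ range (n + 3), ((n + 1).choose (k + 1) : ℚ_[2])
        * (2 * ((k : ℚ_[2]) + 1) ^ 2 * ph k) := by
    rw [mul_sum, mul_sum, ← sum_sub_distrib, ← sum_add_distrib, ← sum_add_distrib]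
    refine sum_congr rfl fun k _ => ?_
    have hk := key_id (n + 1) k
    rw [Nat.add_sub_cancel] at hk
    push_cast at hk
    have e : (n : ℚ_[2]) + 1 + 1 = n + 2 := by ring
    rw [e] at hk
    linear_combination (-ph k) * hk
  rw [← hS2] at hfin
  linear_combination hfin

/-- coefficients of `K` in `ℚ_[2]` -/
noncomputable def kk (n : ℕ) : ℚ_[2] := ((coeff n serK : ℚ) : ℚ_[2])

theorem coeff_serK_rec (n : ℕ) :
    ((n : ℚ) + 2) ^ 2 * coeff (n + 2) serK = ((n : ℚ) + 1) ^ 2 * coeff n serK := by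
  simp only [serK, coeff_mk]
  rcases Nat.even_or_odd' n with ⟨m, rfl | rfl⟩
  · have e1 : Even (2 * m) := even_two_mul m
    have e2 : Even (2 * m + 2) := by rw [show 2 * m + 2 = 2 * (m + 1) by ring]; exact even_two_mul _
    rw [if_pos e1, if_pos e2]
    have h1 : (2 * m + 2) / 2 = m + 1 := by omega
    have h2 : (2 * m) / 2 = m := by omega
    rw [h1, h2]
    have h := Nat.succ_mul_centralBinom_succ m
    have h3 : (((m + 1) * (m + 1).centralBinom : ℕ) : ℚ)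
        = ((2 * (2 * m + 1) * m.centralBinom : ℕ) : ℚ) := by rw [h]
    push_cast at h3 ⊢
    have h4 : ((2 * (m : ℚ) + 2) * ((m + 1).centralBinom : ℚ)) ^ 2
        = 16 * ((2 * (m : ℚ) + 1) * (m.centralBinom : ℚ)) ^ 2 := by
      have : (2 * (m : ℚ) + 2) * ((m + 1).centralBinom : ℚ)
          = 4 * ((2 * (m : ℚ) + 1) * (m.centralBinom : ℚ)) := by linear_combination 2 * h3
      rw [this]; ring
    rw [pow_add]
    field_simp
    linear_combination h4
  · have e1 : ¬ Even (2 * m + 1) := by simp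
    have e2 : ¬ Even (2 * m + 1 + 2) := by
      rw [show 2 * m + 1 + 2 = 2 * (m + 1) + 1 by ring]; simp
    rw [if_neg e1, if_neg e2]; ring

theorem kk_zero : kk 0 = 1 := by simp [kk, serK]
theorem kk_one : kk 1 = 0 := by simp [kk, serK]

theorem kk_rec (n : ℕ) :
    ((n : ℚ_[2]) + 2) ^ 2 * kk (n + 2) = ((n : ℚ_[2]) + 1) ^ 2 * kk n := by
  have h := coeff_serK_rec n
  have h2 : (((((n : ℚ) + 2) ^ 2 * coeff (n + 2) serK : ℚ)) : ℚ_[2])
      = ((((n : ℚ) + 1) ^ 2 * coeff n serK : ℚ) : ℚ_[2]) := by rw [h]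
  push_cast at h2
  exact h2

theorem cB_rec2 (n : ℕ) : ((n : ℚ_[2]) + 2) ^ 2 * ((cB (n + 2) : ℚ) : ℚ_[2])
    = ((n : ℚ_[2]) + 1) ^ 2 * ((cB n : ℚ) : ℚ_[2]) - 1 / 4 := by
  rw [cB]
  push_cast
  rw [mul_div_cancel₀]
  exact pow_ne_zero 2 (cast_add_two_ne n)

/-- **continuation at `c0`** -/
theorem ff_eq (n : ℕ) : ff n = ((cB n : ℚ) : ℚ_[2]) - x2 * kk n := by
  induction n using Nat.twoStepInduction with
  | zero => rw [ff_zero, kk_zero]; simp [cB]
  | one => rw [ff_one, kk_one]; simp [cB]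
  | more n ih _ =>
    have hne : ((n : ℚ_[2]) + 2) ^ 2 ≠ 0 := pow_ne_zero 2 (cast_add_two_ne n)
    refine mul_left_cancel₀ hne ?_
    rw [ff_rec, ih]
    have h := kk_rec n
    have h1 := cB_rec2 n
    linear_combination x2 * h - h1

theorem coeff_B_sub (n : ℕ) :
    coeff n (mp serB - PowerSeries.C x2 * mp serK) = ff n := by
  rw [map_sub, coeff_C_mul, coeff_mp, coeff_mp, ff_eq]
  simp [serB, kk]

end Vale.Agent.P030.H914
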