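import Vale.Agent.P030.H914.ContW

/-!
# P030, the 2-adic place: evaluation of series in `X = S - 1` at `c1` and `c0`

`ev1 G = G (-(1+t)/2)` (needs `Dc C G`), `binT G = (1/(1-t)) G (t/(1-t))`.
-/

namespace Vale.Agent.P030.H914

open PowerSeries Finset Vale.Agent.P030.T

/-- decay `8^{-k}` up to a quadratic factor -/
def Dc (C : ℝ) (G : ℚ_[2]⟦X⟧) : Prop := ∀ k, ‖coeff k G‖ ≤ C * ((k : ℝ) + 1) ^ 2 * (1 / 8) ^ k

theorem Dc.nonneg {C : ℝ} {G : ℚ_[2]⟦X⟧} (h : Dc C G) : 0 ≤ C := by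
  have := h 0
  simp at this
  exact (norm_nonneg _).trans this

theorem Dc.mono {C C' : ℝ} {G : ℚ_[2]⟦X⟧} (h : Dc C G) (hC : C ≤ C') : Dc C' G := fun k =>
  (h k).trans (by gcongr)

theorem Dc.add {C : ℝ} {G H : ℚ_[2]⟦X⟧} (hG : Dc C G) (hH : Dc C H) : Dc C (G + H) := fun k => by
  rw [map_add]
  exact (IsUltrametricDist.norm_add_le_max _ _).trans (max_le (hG k) (hH k))

theorem Dc.neg {C : ℝ} {G : ℚ_[2]⟦X⟧} (hG : Dc C G) : Dc C (-G) := fun k => by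
  rw [map_neg, norm_neg]; exact hG k

theorem Dc.sub {C : ℝ} {G H : ℚ_[2]⟦X⟧} (hG : Dc C G) (hH : Dc C H) : Dc C (G - H) := by
  rw [sub_eq_add_neg]; exact hG.add hH.neg

theorem Dc.C_mul {C : ℝ} {G : ℚ_[2]⟦X⟧} (hG : Dc C G) (c : ℚ_[2]) :
    Dc (‖c‖ * C) (PowerSeries.C c * G) := fun k => by
  rw [coeff_C_mul, norm_mul]
  have := mul_le_mul_of_nonneg_left (hG k) (norm_nonneg c)
  linarith [this, mul_assoc ‖c‖ (C * ((k : ℝ) + 1) ^ 2) ((1 / 8) ^ k)]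

theorem Dc.mul {H C : ℝ} {h G : ℚ_[2]⟦X⟧} (hh : ∀ i, ‖coeff i h‖ ≤ H * (1 / 8) ^ i)
    (hG : Dc C G) : Dc (H * C) (h * G) := fun k => by
  have hH : 0 ≤ H := by
    have := hh 0
    simp at this
    exact (norm_nonneg _).trans this
  have hC := hG.nonneg
  rw [coeff_mul]
  refine norm_sum_le_of _ _ (by positivity) fun p hp => ?_
  have hpk := mem_antidiagonal.1 hp
  rw [norm_mul]
  calc ‖coeff p.1 h‖ * ‖coeff p.2 G‖
      ≤ (H * (1 / 8) ^ p.1) * (C * ((p.2 : ℝ) + 1) ^ 2 * (1 / 8) ^ p.2) :=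
        mul_le_mul (hh _) (hG _) (norm_nonneg _) (by positivity)
    _ = H * C * ((p.2 : ℝ) + 1) ^ 2 * (1 / 8) ^ k := by rw [← hpk, pow_add]; ring
    _ ≤ H * C * ((k : ℝ) + 1) ^ 2 * (1 / 8) ^ k := by
        have : (p.2 : ℝ) ≤ k := by exact_mod_cast (by omega : p.2 ≤ k)
        gcongr

theorem Dc.X_mul {C : ℝ} {G : ℚ_[2]⟦X⟧} (hG : Dc C G) : Dc (8 * C) (X * G) := by
  refine Dc.mul (H := 8) (fun i => ?_) hG
  rw [coeff_X]
  split_ifs with h
  · subst h; simp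
  · simp

/-- the derivative -/
noncomputable def dK (f : ℚ_[2]⟦X⟧) : ℚ_[2]⟦X⟧ := mk fun n => ((n : ℚ_[2]) + 1) * coeff (n + 1) f

theorem coeff_dK (n : ℕ) (f : ℚ_[2]⟦X⟧) : coeff n (dK f) = ((n : ℚ_[2]) + 1) * coeff (n + 1) f := by
  simp [dK]

theorem mp_dd (f : ℚ⟦X⟧) : mp (dd f) = dK (mp f) := by
  ext n
  rw [coeff_mp, coeff_dK, coeff_mp]
  simp [dd]

theorem Dc.dK {C : ℝ} {G : ℚ_[2]⟦X⟧} (hG : Dc C G) : Dc C (dK G) := fun k => by
  have hC := hG.nonneg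
  rw [coeff_dK, norm_mul]
  have e : (k : ℚ_[2]) + 1 = ((k + 1 : ℕ) : ℚ_[2]) := by push_cast; rfl
  rw [e]
  calc ‖((k + 1 : ℕ) : ℚ_[2])‖ * ‖coeff (k + 1) G‖ ≤ 1 * ‖coeff (k + 1) G‖ :=
        mul_le_mul_of_nonneg_right (norm_nat_le _) (norm_nonneg _)
    _ ≤ C * (((k + 1 : ℕ) : ℝ) + 1) ^ 2 * (1 / 8) ^ (k + 1) := by rw [one_mul]; exact hG _
    _ ≤ C * ((k : ℝ) + 1) ^ 2 * (1 / 8) ^ k := by
        push_cast
        rw [pow_succ (1 / 8 : ℝ) k]
        have h0 : (0 : ℝ) ≤ k := Nat.cast_nonneg k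
        have h1 : ((k : ℝ) + 1 + 1) ^ 2 * (1 / 8) ≤ ((k : ℝ) + 1) ^ 2 := by nlinarith
        calc C * ((k : ℝ) + 1 + 1) ^ 2 * ((1 / 8) ^ k * (1 / 8))
            = C * (((k : ℝ) + 1 + 1) ^ 2 * (1 / 8)) * (1 / 8) ^ k := by ring
          _ ≤ C * ((k : ℝ) + 1) ^ 2 * (1 / 8) ^ k := by gcongr

/-! ### evaluation at `c1` -/

/-- `G (-(1+t)/2)` -/
noncomputable def ev1 (G : ℚ_[2]⟦X⟧) : ℚ_[2]⟦X⟧ :=
  mk fun m => ∑' k, coeff k G * (-1 / 2) ^ k * (k.choose m : ℚ_[2])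

theorem norm_neg_half_pow (k : ℕ) : ‖((-1 / 2 : ℚ_[2])) ^ k‖ = 2 ^ k := by
  rw [norm_pow, norm_div, norm_neg, norm_one, norm_two]
  norm_num

theorem ev1_term_le {C : ℝ} {G : ℚ_[2]⟦X⟧} (hG : Dc C G) (m k : ℕ) :
    ‖coeff k G * (-1 / 2) ^ k * (k.choose m : ℚ_[2])‖ ≤ C * ((k : ℝ) + 1) ^ 2 * (1 / 4) ^ k := by
  have hC := hG.nonneg
  rw [norm_mul, norm_mul, norm_neg_half_pow]
  calc ‖coeff k G‖ * 2 ^ k * ‖(k.choose m : ℚ_[2])‖
      ≤ (C * ((k : ℝ) + 1) ^ 2 * (1 / 8) ^ k) * 2 ^ k * 1 :=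
        mul_le_mul (mul_le_mul_of_nonneg_right (hG k) (by positivity)) (norm_nat_le _)
          (norm_nonneg _) (by positivity)
    _ = C * ((k : ℝ) + 1) ^ 2 * (1 / 4) ^ k := by
        have : (1 / 4 : ℝ) = (1 / 8) * 2 := by norm_num
        rw [this, mul_pow]; ring

theorem ev1_summable {C : ℝ} {G : ℚ_[2]⟦X⟧} (hG : Dc C G) (m : ℕ) :
    Summable fun k => coeff k G * (-1 / 2) ^ k * (k.choose m : ℚ_[2]) :=
  summable_of_sq (r := 1 / 4) (by norm_num) (by norm_num) (ev1_term_le hG m)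

theorem coeff_ev1 (m : ℕ) (G : ℚ_[2]⟦X⟧) :
    coeff m (ev1 G) = ∑' k, coeff k G * (-1 / 2) ^ k * (k.choose m : ℚ_[2]) := by
  simp [ev1]

theorem ev1_add {C D : ℝ} {G H : ℚ_[2]⟦X⟧} (hG : Dc C G) (hH : Dc D H) :
    ev1 (G + H) = ev1 G + ev1 H := by
  ext m
  rw [map_add, coeff_ev1, coeff_ev1, coeff_ev1, ← (ev1_summable hG m).tsum_add (ev1_summable hH m)]
  refine tsum_congr fun k => ?_
  rw [map_add]; ring

theorem ev1_C_mul (c : ℚ_[2]) (G : ℚ_[2]⟦X⟧) :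
    ev1 (PowerSeries.C c * G) = PowerSeries.C c * ev1 G := by
  ext m
  rw [coeff_C_mul, coeff_ev1, coeff_ev1, ← tsum_mul_left]
  refine tsum_congr fun k => ?_
  rw [coeff_C_mul]; ring

theorem ev1_neg (G : ℚ_[2]⟦X⟧) : ev1 (-G) = -ev1 G := by
  have := ev1_C_mul (-1) G
  simpa using this

theorem ev1_sub {C D : ℝ} {G H : ℚ_[2]⟦X⟧} (hG : Dc C G) (hH : Dc D H) :
    ev1 (G - H) = ev1 G - ev1 H := by
  rw [sub_eq_add_neg, ev1_add hG hH.neg, ev1_neg, sub_eq_add_neg]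

theorem ev1_one : ev1 1 = 1 := by
  ext m
  rw [coeff_ev1, tsum_eq_single 0]
  · rcases m with _ | m
    · simp
    · simp
  · intro k hk
    rw [coeff_one, if_neg hk]; simp

theorem ev1_X_mul {C : ℝ} {G : ℚ_[2]⟦X⟧} (hG : Dc C G) :
    ev1 (X * G) = (PowerSeries.C (-1 / 2) * (1 + X)) * ev1 G := by
  ext m
  have h0 : Summable fun k => coeff k (X * G) * (-1 / 2) ^ k * (k.choose m : ℚ_[2]) :=
    ev1_summable hG.X_mul m
  rw [coeff_ev1, h0.tsum_eq_zero_add, mul_assoc (PowerSeries.C (-1 / 2)) (1 + X) (ev1 G),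
    coeff_C_mul]
  have e0 : coeff 0 (X * G) * (-1 / 2) ^ 0 * ((0 : ℕ).choose m : ℚ_[2]) = 0 := by
    rw [coeff_zero_X_mul]; ring
  rw [e0, zero_add]
  have e1 : (fun k : ℕ => coeff (k + 1) (X * G) * (-1 / 2) ^ (k + 1)
      * ((k + 1).choose m : ℚ_[2]))
      = fun k => (-1 / 2) * (coeff k G * (-1 / 2) ^ k * ((k + 1).choose m : ℚ_[2])) := by
    funext k
    rw [coeff_succ_X_mul, pow_succ]; ring
  rw [e1, tsum_mul_left]
  congr 1
  rcases m with _ | m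
  · rw [add_mul, one_mul, map_add, coeff_zero_X_mul, add_zero, coeff_ev1]
    refine tsum_congr fun k => ?_
    simp
  · rw [add_mul, one_mul, map_add, coeff_succ_X_mul, coeff_ev1, coeff_ev1,
      ← (ev1_summable hG (m + 1)).tsum_add (ev1_summable hG m)]
    refine tsum_congr fun k => ?_
    rw [Nat.choose_succ_succ]
    push_cast; ring

theorem ev1_dK {C : ℝ} {G : ℚ_[2]⟦X⟧} (hG : Dc C G) :
    dK (ev1 G) = PowerSeries.C (-1 / 2) * ev1 (dK G) := by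
  ext m
  have h0 : Summable fun k => coeff k G * (-1 / 2) ^ k * (k.choose (m + 1) : ℚ_[2]) :=
    ev1_summable hG (m + 1)
  rw [coeff_dK, coeff_C_mul, coeff_ev1, coeff_ev1, h0.tsum_eq_zero_add]
  have e0 : coeff 0 G * (-1 / 2) ^ 0 * ((0 : ℕ).choose (m + 1) : ℚ_[2]) = 0 := by simp
  rw [e0, zero_add, ← tsum_mul_left, ← tsum_mul_left]
  refine tsum_congr fun k => ?_
  have h := Nat.add_one_mul_choose_eq k m
  have h2 : (((k + 1) * k.choose m : ℕ) : ℚ_[2])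
      = (((k + 1).choose (m + 1) * (m + 1) : ℕ) : ℚ_[2]) := by rw [h]
  push_cast at h2
  rw [coeff_dK, pow_succ]
  linear_combination (-1 / 2 * (-1 / 2) ^ k * coeff (k + 1) G) * (-h2)

/-- tails -/
theorem ev1_tail {C : ℝ} {G : ℚ_[2]⟦X⟧} (hG : Dc C G) (D : ℕ) (h0 : ∀ k < D, coeff k G = 0)
    (m : ℕ) : ‖coeff m (ev1 G)‖ ≤ C * ((D : ℝ) + 1) ^ 2 * (1 / 4) ^ D := by
  have hC := hG.nonneg
  rw [coeff_ev1]
  refine (IsUltrametricDist.norm_tsum_le _).trans (ciSup_le fun k => ?_)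
  rcases lt_or_ge k D with h | h
  · rw [h0 k h]; simp; positivity
  · refine (ev1_term_le hG m k).trans ?_
    rw [mul_assoc, mul_assoc]
    exact mul_le_mul_of_nonneg_left (sq_quarter_anti h) hC

/-! ### the series `E` and its theta version -/

/-- `E(X) = Σ ph_k X^k` -/
noncomputable def serE : ℚ_[2]⟦X⟧ := mk ph

theorem dc_E : Dc 4 serE := fun k => by
  simpa [serE] using norm_ph k

theorem ev1_E : ev1 serE = mp serB2 := by
  ext m
  rw [coeff_ev1, coeff_mp]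
  have h := (hasSum_bb m).tsum_eq
  simpa [serE, serB2, bb] using h

/-- `X d/dX ((1+X) E)` -/
noncomputable def serE7 : ℚ_[2]⟦X⟧ := X * dK (serE + X * serE)

theorem dc_E7 : Dc 256 serE7 := by
  have h1 : Dc 32 (serE + X * serE) := by
    have h2 := dc_E.X_mul
    exact (dc_E.mono (by norm_num)).add (h2.mono (by norm_num))
  exact (h1.dK.X_mul).mono (by norm_num)

theorem ev1_E7 : ev1 serE7 = mp (tw serB2) := by
  have h1 : Dc 32 (serE + X * serE) := by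
    have h2 := dc_E.X_mul
    exact (dc_E.mono (by norm_num)).add (h2.mono (by norm_num))
  have h3 : ev1 (serE + X * serE) = PowerSeries.C (1 / 2) * ((1 - X) * mp serB2) := by
    rw [ev1_add dc_E dc_E.X_mul, ev1_X_mul dc_E, ev1_E]
    have e : (PowerSeries.C (-1 / 2 : ℚ_[2])) = -PowerSeries.C (1 / 2) := by
      rw [← map_neg]; norm_num
    have e2 : (1 : ℚ_[2]⟦X⟧) = PowerSeries.C (1 / 2) * 2 := by
      have : (2 : ℚ_[2]⟦X⟧) = PowerSeries.C 2 := by rw [map_ofNat]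
      rw [this, ← map_mul]; norm_num
    rw [e]
    linear_combination (mp serB2) * e2
  have h4 := ev1_dK h1
  rw [h3] at h4
  unfold serE7
  rw [ev1_X_mul h1.dK, mul_assoc, mul_left_comm, ← h4]
  have h5 : dK (PowerSeries.C (1 / 2) * ((1 - X) * mp serB2))
      = PowerSeries.C (1 / 2) * mp (dd ((1 - X) * serB2)) := by
    rw [mp_dd, map_mul, map_sub, map_one, mp_X]
    ext n
    rw [coeff_dK, coeff_C_mul, coeff_C_mul, coeff_dK]; ring
  rw [h5]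
  unfold tw
  rw [mp_sc, map_mul, map_add, map_one, mp_X]
  push_cast
  ring

/-! ### the binomial transform, evaluation at `c0` -/

/-- `(1/(1-t)) G (t/(1-t))` -/
noncomputable def binT (G : ℚ_[2]⟦X⟧) : ℚ_[2]⟦X⟧ :=
  mk fun n => ∑ k ∈ range (n + 1), (n.choose k : ℚ_[2]) * coeff k G

theorem coeff_binT (n : ℕ) (G : ℚ_[2]⟦X⟧) :
    coeff n (binT G) = ∑ k ∈ range (n + 1), (n.choose k : ℚ_[2]) * coeff k G := by
  simp [binT]

theorem binT_add (G H : ℚ_[2]⟦X⟧) : binT (G + H) = binT G + binT H := by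
  ext n
  rw [map_add, coeff_binT, coeff_binT, coeff_binT, ← sum_add_distrib]
  refine sum_congr rfl fun k _ => ?_
  rw [map_add]; ring

theorem binT_C_mul (c : ℚ_[2]) (G : ℚ_[2]⟦X⟧) :
    binT (PowerSeries.C c * G) = PowerSeries.C c * binT G := by
  ext n
  rw [coeff_C_mul, coeff_binT, coeff_binT, mul_sum]
  refine sum_congr rfl fun k _ => ?_
  rw [coeff_C_mul]; ring

theorem binT_neg (G : ℚ_[2]⟦X⟧) : binT (-G) = -binT G := by
  have := binT_C_mul (-1) G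
  simpa using this

theorem binT_sub (G H : ℚ_[2]⟦X⟧) : binT (G - H) = binT G - binT H := by
  rw [sub_eq_add_neg, binT_add, binT_neg, sub_eq_add_neg]

/-- `(1 - t) binT (X G) = t binT G` -/
theorem binT_X_mul (G : ℚ_[2]⟦X⟧) : (1 - X) * binT (X * G) = X * binT G := by
  have hco : ∀ n, coeff n (binT (X * G))
      = ∑ k ∈ range n, (n.choose (k + 1) : ℚ_[2]) * coeff k G := by
    intro n
    rw [coeff_binT, sum_range_succ']
    rw [coeff_zero_X_mul, mul_zero, add_zero]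
    refine sum_congr rfl fun k _ => ?_
    rw [coeff_succ_X_mul]
  ext n
  rw [sub_mul, one_mul, map_sub]
  rcases n with _ | n
  · rw [coeff_zero_X_mul, coeff_zero_X_mul, hco]; simp
  · rw [coeff_succ_X_mul, coeff_succ_X_mul, hco, hco, coeff_binT, sub_eq_iff_eq_add]
    have e : ∑ k ∈ range n, (n.choose (k + 1) : ℚ_[2]) * coeff k G
        = ∑ k ∈ range (n + 1), (n.choose (k + 1) : ℚ_[2]) * coeff k G := by
      rw [sum_range_succ, Nat.choose_eq_zero_of_lt (by omega : n < n + 1)]; simp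
    rw [e, ← sum_add_distrib]
    refine sum_congr rfl fun k _ => ?_
    rw [Nat.choose_succ_succ]; push_cast; ring

/-- theta -/
noncomputable def thK (f : ℚ_[2]⟦X⟧) : ℚ_[2]⟦X⟧ := mk fun n => (n : ℚ_[2]) * coeff n f

theorem coeff_thK (n : ℕ) (f : ℚ_[2]⟦X⟧) : coeff n (thK f) = (n : ℚ_[2]) * coeff n f := by
  simp [thK]

theorem mp_th (f : ℚ⟦X⟧) : mp (th f) = thK (mp f) := by
  ext n
  rw [coeff_mp, coeff_thK, coeff_mp]
  simp [th]

theorem coeff_E7 (k : ℕ) : coeff k serE7 = (k : ℚ_[2]) * (ph k + if k = 0 then 0 else ph (k - 1)) := by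
  unfold serE7
  rcases k with _ | k
  · simp
  · rw [coeff_succ_X_mul, coeff_dK, map_add, coeff_succ_X_mul]
    simp [serE]

theorem binT_E7 : binT serE7 = thK (binT serE) := by
  ext n
  rw [coeff_binT, coeff_thK, coeff_binT]
  simp only [coeff_E7, serE, coeff_mk]
  rw [mul_sum]
  have e : ∀ k ∈ range (n + 1), (n.choose k : ℚ_[2]) * ((k : ℚ_[2]) *
      (ph k + if k = 0 then 0 else ph (k - 1)))
      = (n.choose k : ℚ_[2]) * ((k : ℚ_[2]) * ph k)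
        + (n.choose k : ℚ_[2]) * ((k : ℚ_[2]) * if k = 0 then 0 else ph (k - 1)) := by
    intro k _; ring
  rw [sum_congr rfl e, sum_add_distrib]
  have e2 : ∑ k ∈ range (n + 1), (n.choose k : ℚ_[2]) * ((k : ℚ_[2]) * if k = 0 then 0
      else ph (k - 1))
      = ∑ k ∈ range (n + 1), (n.choose (k + 1) : ℚ_[2]) * (((k : ℚ_[2]) + 1) * ph k) := by
    rw [sum_range_succ', sum_range_succ _ n, Nat.choose_eq_zero_of_lt (by omega : n < n + 1)]
    simp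
  rw [e2, ← sum_add_distrib]
  refine sum_congr rfl fun k _ => ?_
  have h := choose_a n k
  linear_combination (ph k) * h

theorem binT_E : binT serE = mp serB - PowerSeries.C x2 * mp serK := by
  ext n
  rw [coeff_B_sub, coeff_binT]
  simp [serE, ff]

/-- bound for the tails at `c0` -/
theorem binT_tail {B : ℝ} (hB : 0 ≤ B) {G : ℚ_[2]⟦X⟧} (h : ∀ k, ‖coeff k G‖ ≤ B) (m : ℕ) :
    ‖coeff m ((1 - X) * binT G)‖ ≤ B := by
  have h1 : ∀ n, ‖coeff n (binT G)‖ ≤ B := by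
    intro n
    rw [coeff_binT]
    refine norm_sum_le_of _ _ hB fun k _ => ?_
    rw [norm_mul]
    calc ‖(n.choose k : ℚ_[2])‖ * ‖coeff k G‖ ≤ 1 * B :=
          mul_le_mul (norm_nat_le _) (h k) (norm_nonneg _) zero_le_one
      _ = B := one_mul B
  rw [sub_mul, one_mul, map_sub, sub_eq_add_neg]
  refine (IsUltrametricDist.norm_add_le_max _ _).trans (max_le (h1 m) ?_)
  rw [norm_neg]
  rcases m with _ | m
  · rw [coeff_zero_X_mul, norm_zero]; exact hB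
  · rw [coeff_succ_X_mul]; exact h1 m

end Vale.Agent.P030.H914
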