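import Vale.Agent.P030.T.Defs
import Vale.Agent.P030.H914.Trop

/-!
# P030, the 2-adic place: growth of power series

`GB ρ N C f` : the coefficients of order `n ≤ N` are at most `C ρ ^ n`.
-/

namespace Vale.Agent.P030.H914

open PowerSeries Finset

section general

variable {K : Type*} [NormedField K] [IsUltrametricDist K]

/-- growth bound up to order `N` -/
def GB (ρ : ℝ) (N : ℕ) (C : ℝ) (f : K⟦X⟧) : Prop := ∀ n ≤ N, ‖coeff n f‖ ≤ C * ρ ^ n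

theorem GB.nonneg {ρ : ℝ} {N : ℕ} {C : ℝ} {f : K⟦X⟧} (h : GB ρ N C f) : 0 ≤ C := by
  have := h 0 (Nat.zero_le _)
  rw [pow_zero, mul_one] at this
  exact (norm_nonneg _).trans this

theorem GB.mono_N {ρ : ℝ} {N N' : ℕ} {C : ℝ} {f : K⟦X⟧} (h : GB ρ N C f) (hN : N' ≤ N) :
    GB ρ N' C f := fun n hn => h n (hn.trans hN)

theorem GB.mono {ρ : ℝ} {N : ℕ} {C C' : ℝ} {f : K⟦X⟧} (h : GB ρ N C f) (hC : C ≤ C')
    (hρ : 0 ≤ ρ) : GB ρ N C' f := fun n hn =>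
  (h n hn).trans (mul_le_mul_of_nonneg_right hC (pow_nonneg hρ n))

theorem GB.mono_rho {ρ ρ' : ℝ} {N : ℕ} {C : ℝ} {f : K⟦X⟧} (h : GB ρ N C f) (hρ : 0 ≤ ρ)
    (hρ' : ρ ≤ ρ') : GB ρ' N C f := fun n hn =>
  (h n hn).trans (mul_le_mul_of_nonneg_left (pow_le_pow_left₀ hρ hρ' n) h.nonneg)

theorem GB.zero {ρ : ℝ} {N : ℕ} : GB ρ N 0 (0 : K⟦X⟧) := fun n _ => by simp

theorem GB.zero' {ρ : ℝ} {N : ℕ} {C : ℝ} (hC : 0 ≤ C) (hρ : 0 ≤ ρ) : GB ρ N C (0 : K⟦X⟧) :=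
  fun n _ => by simpa using mul_nonneg hC (pow_nonneg hρ n)

theorem GB.add {ρ : ℝ} {N : ℕ} {C : ℝ} {f g : K⟦X⟧} (hf : GB ρ N C f) (hg : GB ρ N C g) :
    GB ρ N C (f + g) := fun n hn => by
  rw [map_add]
  exact (IsUltrametricDist.norm_add_le_max _ _).trans (max_le (hf n hn) (hg n hn))

theorem GB.neg {ρ : ℝ} {N : ℕ} {C : ℝ} {f : K⟦X⟧} (hf : GB ρ N C f) : GB ρ N C (-f) :=
  fun n hn => by rw [map_neg, norm_neg]; exact hf n hn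

theorem GB.sub {ρ : ℝ} {N : ℕ} {C : ℝ} {f g : K⟦X⟧} (hf : GB ρ N C f) (hg : GB ρ N C g) :
    GB ρ N C (f - g) := by rw [sub_eq_add_neg]; exact hf.add hg.neg

theorem GB.sum {ι : Type*} (s : Finset ι) {ρ : ℝ} {N : ℕ} {C : ℝ} (hC : 0 ≤ C) (hρ : 0 ≤ ρ)
    (f : ι → K⟦X⟧) (h : ∀ i ∈ s, GB ρ N C (f i)) : GB ρ N C (∑ i ∈ s, f i) := fun n hn => by
  rw [map_sum]
  exact norm_sum_le_of _ _ (mul_nonneg hC (pow_nonneg hρ n)) fun i hi => h i hi n hn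

theorem GB.mul {ρ : ℝ} (hρ : 0 ≤ ρ) {N : ℕ} {C D : ℝ} {f g : K⟦X⟧} (hf : GB ρ N C f)
    (hg : GB ρ N D g) : GB ρ N (C * D) (f * g) := fun n hn => by
  rw [coeff_mul]
  refine norm_sum_le_of _ _ (mul_nonneg (mul_nonneg hf.nonneg hg.nonneg) (pow_nonneg hρ n))
    fun p hp => ?_
  have hpn := mem_antidiagonal.1 hp
  rw [norm_mul]
  calc ‖coeff p.1 f‖ * ‖coeff p.2 g‖ ≤ (C * ρ ^ p.1) * (D * ρ ^ p.2) :=
        mul_le_mul (hf _ (by omega)) (hg _ (by omega)) (norm_nonneg _)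
          (mul_nonneg hf.nonneg (pow_nonneg hρ _))
    _ = C * D * ρ ^ n := by rw [← hpn, pow_add]; ring

theorem GB.one {ρ : ℝ} (hρ : 0 ≤ ρ) {N : ℕ} : GB ρ N 1 (1 : K⟦X⟧) := fun n _ => by
  rw [coeff_one]
  split_ifs with h
  · simp [h]
  · simpa using pow_nonneg hρ n

theorem GB.C {ρ : ℝ} (hρ : 0 ≤ ρ) {N : ℕ} (c : K) : GB ρ N ‖c‖ (PowerSeries.C c) := fun n _ => by
  rw [coeff_C]
  split_ifs with h
  · simp [h]
  · simpa using mul_nonneg (norm_nonneg c) (pow_nonneg hρ n)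

theorem GB.X {ρ : ℝ} (hρ : 0 < ρ) {N : ℕ} : GB ρ N ρ⁻¹ (PowerSeries.X : K⟦X⟧) := fun n _ => by
  rw [coeff_X]
  split_ifs with h
  · simp [h, hρ.ne']
  · simpa using mul_nonneg (inv_nonneg.2 hρ.le) (pow_nonneg hρ.le n)

theorem GB.X_one {ρ : ℝ} (hρ : 1 ≤ ρ) {N : ℕ} : GB ρ N 1 (PowerSeries.X : K⟦X⟧) :=
  (GB.X (by linarith)).mono (inv_le_one_of_one_le₀ hρ) (by linarith)

theorem GB.C_mul {ρ : ℝ} (hρ : 0 ≤ ρ) {N : ℕ} {D : ℝ} {f : K⟦X⟧} (c : K) (hf : GB ρ N D f) :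
    GB ρ N (‖c‖ * D) (PowerSeries.C c * f) := fun n hn => by
  rw [coeff_C_mul, norm_mul, mul_assoc]
  exact mul_le_mul_of_nonneg_left (hf n hn) (norm_nonneg _)

theorem GB.pow {ρ : ℝ} (hρ : 0 ≤ ρ) {N : ℕ} {C : ℝ} {f : K⟦X⟧} (hf : GB ρ N C f) (k : ℕ) :
    GB ρ N (C ^ k) (f ^ k) := by
  induction k with
  | zero => simpa using GB.one hρ
  | succ k ih => rw [pow_succ, pow_succ]; exact ih.mul hρ hf

theorem GB.prod {ι : Type*} (s : Finset ι) {ρ : ℝ} (hρ : 0 ≤ ρ) {N : ℕ} (C : ι → ℝ)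
    (f : ι → K⟦X⟧) (h : ∀ i ∈ s, GB ρ N (C i) (f i)) :
    GB ρ N (∏ i ∈ s, C i) (∏ i ∈ s, f i) := by
  classical
  induction s using Finset.induction_on with
  | empty => simpa using GB.one hρ
  | insert a s ha ih =>
    rw [prod_insert ha, prod_insert ha]
    exact (h a (mem_insert_self _ _)).mul hρ (ih fun i hi => h i (mem_insert_of_mem hi))

/-- coefficient of a product with two different growths -/
theorem GB.coeff_mul_le {ρ : ℝ} (hρ : 0 ≤ ρ) {N : ℕ} {C D : ℝ} {f g : K⟦X⟧} (hf : GB ρ N C f)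
    (hg : GB ρ N D g) {n : ℕ} (hn : n ≤ N) : ‖coeff n (f * g)‖ ≤ C * D * ρ ^ n :=
  hf.mul hρ hg n hn

end general

/-! ### the field `ℚ_[2]` -/

/-- from `ℚ` to `ℚ_[2]` -/
noncomputable def mp : ℚ⟦X⟧ →+* ℚ_[2]⟦X⟧ := PowerSeries.map (algebraMap ℚ ℚ_[2])

theorem coeff_mp (n : ℕ) (f : ℚ⟦X⟧) : coeff n (mp f) = ((coeff n f : ℚ) : ℚ_[2]) := by
  simp [mp]

theorem norm_two : ‖(2 : ℚ_[2])‖ = 1 / 2 := by
  have := Padic.norm_p (p := 2)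
  simpa using this

theorem norm_nat_le (n : ℕ) : ‖(n : ℚ_[2])‖ ≤ 1 := by
  simpa using Padic.norm_int_le_one (p := 2) n

theorem norm_odd {n : ℕ} (h : n % 2 = 1) : ‖(n : ℚ_[2])‖ = 1 := by
  refine le_antisymm (norm_nat_le n) ?_
  by_contra hlt
  have h1 : ‖(n : ℚ_[2])‖ < 1 := not_le.1 hlt
  rw [Padic.norm_natCast_lt_one_iff] at h1
  omega

/-- `‖n‖ ≥ 1/n` -/
theorem one_le_mul_norm {n : ℕ} (hn : n ≠ 0) : 1 ≤ (n : ℝ) * ‖(n : ℚ_[2])‖ := by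
  induction n using Nat.strong_induction_on with
  | _ n ih =>
    rcases Nat.even_or_odd' n with ⟨k, rfl | rfl⟩
    · have hk : k ≠ 0 := by omega
      have := ih k (by omega) hk
      push_cast
      rw [norm_mul, norm_two]
      linarith
    · rw [norm_odd (by omega), mul_one]
      exact_mod_cast Nat.one_le_iff_ne_zero.2 hn

theorem norm_inv_nat_le {n : ℕ} (hn : n ≠ 0) : ‖((n : ℚ_[2]))⁻¹‖ ≤ n := by
  rw [norm_inv]
  have h := one_le_mul_norm hn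
  have hp : 0 < ‖(n : ℚ_[2])‖ := norm_pos_iff.2 (by exact_mod_cast hn)
  rw [inv_le_iff_one_le_mul₀ hp]
  exact h

/-- integral coefficients -/
theorem GB.of_int {ρ : ℝ} (hρ : 1 ≤ ρ) {N : ℕ} {f : ℚ⟦X⟧} (h : ∀ n, ∃ z : ℤ, coeff n f = z) :
    GB ρ N 1 (mp f) := fun n _ => by
  obtain ⟨z, hz⟩ := h n
  rw [coeff_mp, hz, one_mul]
  have : (((z : ℚ)) : ℚ_[2]) = (z : ℚ_[2]) := by push_cast; rfl
  rw [this]
  exact (Padic.norm_int_le_one z).trans (one_le_pow₀ hρ)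

end Vale.Agent.P030.H914
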