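import Vale.Agent.P030.H914.Poly
import Vale.Agent.P030.H869.KEnt
import Vale.Agent.P030.H721.G8

/-!
# P030, the 2-adic place: the entries of the K-rows at `z1` and `w1`

Row: `h e_F - t e_1` with `t` the truncation of `h E`; what remains of the rational solution is
its tail.
-/

namespace Vale.Agent.P030.H914

open PowerSeries Finset Vale.Agent.P030.T Vale.Agent.P030.H869

/-! ### the Hermite polynomials in the variable `X = S - 1` -/

theorem hm_comp (α β γ r : ℚ_[2]) (n0 n1 n2 i : ℕ) :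
    (H721.hm α β γ n0 n1 n2 i).comp (Polynomial.X - Polynomial.C r)
      = H721.hm (α + r) (β + r) (γ + r) n0 n1 n2 i := by
  have key : ∀ (a : ℚ_[2]) (m : ℕ), ((Polynomial.X - Polynomial.C a) ^ m).comp
      (Polynomial.X - Polynomial.C r) = (Polynomial.X - Polynomial.C (a + r)) ^ m := by
    intro a m
    rw [Polynomial.pow_comp, Polynomial.sub_comp, Polynomial.X_comp, Polynomial.C_comp, map_add]
    congr 1; ring
  unfold H721.hm
  split_ifs <;> simp only [Polynomial.mul_comp, key]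

/-- the row polynomial in the variable `X` -/
noncomputable def px (n0 n1 n2 i : ℕ) : Polynomial ℚ_[2] :=
  H721.hm (0 : ℚ_[2]) (-1 / 2) (-1) n0 n1 n2 i

theorem px_comp (n0 n1 n2 i : ℕ) :
    H721.hm (1 : ℚ_[2]) (1 / 2) 0 n0 n1 n2 i
      = (px n0 n1 n2 i).comp (Polynomial.X - Polynomial.C 1) := by
  unfold px
  rw [hm_comp]
  norm_num

theorem px_natDegree {n0 n1 n2 D : ℕ} (h : n0 + n1 + n2 ≤ D) {i : ℕ} (hi : i < D) :
    (px n0 n1 n2 i).natDegree < D := H721.hm_natDegree _ _ _ h hi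

theorem px_gp (n0 n1 n2 i : ℕ) (j : ℕ) : ‖(px n0 n1 n2 i).coeff j‖
    ≤ (2 : ℝ) ^ (H721.Apot n0 n1 n2 i + H721.Wc n0 n1 n2 3) * (1 / 8) ^ j := by
  have h2 : ‖((-1 / 2 : ℚ_[2]))‖ = 2 := by
    rw [norm_div, norm_neg, norm_one, H914.norm_two]; norm_num
  have h := H721.gp8_hm (α := (0 : ℚ_[2])) (β := -1 / 2) (γ := -1) (by simp) (by rw [h2]; norm_num)
    (by simp) n0 n1 n2 i j
  have e : (1 / 8 : ℝ) ^ j = ((8 : ℝ) ^ j)⁻¹ := by rw [one_div, inv_pow]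
  rw [e, ← div_eq_mul_inv, le_div_iff₀ (by positivity)]
  exact h

/-! ### the values of polynomials in `S` -/

theorem SN_zero_sub : SN ℚ_[2] 0 - 1 = xz := by
  have h := SM_eq ℚ_[2] 0
  have h1 : SM ℚ_[2] 0 = xz := rfl
  have h2 : SD ℚ_[2] 0 = 1 := rfl
  rw [h1, h2] at h
  exact h.symm

theorem SN_one_sub : SN ℚ_[2] 1 - 1 = xw := by
  have h := SM_eq ℚ_[2] 1
  have h1 : SM ℚ_[2] 1 = -(PowerSeries.C (1 / 2) * (1 + X)) := rfl
  have h2 : SD ℚ_[2] 1 = 1 := rfl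
  rw [h1, h2] at h
  rw [← h]
  unfold xw
  have e : (PowerSeries.C (-1 / 2 : ℚ_[2])) = -PowerSeries.C (1 / 2) := by
    rw [← map_neg]; norm_num
  rw [e]; ring

theorem natDegree_comp_lt {p : Polynomial ℚ_[2]} {D : ℕ} (h : p.natDegree < D) :
    (p.comp (Polynomial.X - Polynomial.C 1)).natDegree < D := by
  rw [Polynomial.natDegree_comp, Polynomial.natDegree_X_sub_C, mul_one]; exact h

theorem evP_zero_comp {p : Polynomial ℚ_[2]} {D : ℕ} (h : p.natDegree < D) :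
    evP ℚ_[2] D 0 (p.comp (Polynomial.X - Polynomial.C 1)) = Polynomial.aeval xz p := by
  rw [evP_eq_aeval D 0 rfl _ (natDegree_comp_lt h), Polynomial.aeval_comp, map_sub,
    Polynomial.aeval_X, Polynomial.aeval_C, map_one, SN_zero_sub]

theorem evP_one_comp {p : Polynomial ℚ_[2]} {D : ℕ} (h : p.natDegree < D) :
    evP ℚ_[2] D 1 (p.comp (Polynomial.X - Polynomial.C 1)) = Polynomial.aeval xw p := by
  rw [evP_eq_aeval D 1 rfl _ (natDegree_comp_lt h), Polynomial.aeval_comp, map_sub,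
    Polynomial.aeval_X, Polynomial.aeval_C, map_one, SN_one_sub]

/-- the truncation, in the variable `S` -/
noncomputable def tS (D n0 n1 n2 i : ℕ) (G : ℚ_[2]⟦X⟧) : Polynomial ℚ_[2] :=
  (trunc D ((px n0 n1 n2 i : ℚ_[2]⟦X⟧) * G)).comp (Polynomial.X - Polynomial.C 1)

theorem trunc_natDegree {D : ℕ} (hD : 0 < D) (G : ℚ_[2]⟦X⟧) : (trunc D G).natDegree < D := by
  obtain ⟨d, rfl⟩ := Nat.exists_eq_succ_of_ne_zero hD.ne'
  exact natDegree_trunc_lt G d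

/-! ### the columns -/

theorem Tup_z1_zero (x : ℚ_[2]) : Tup ℚ_[2] x .z1 0 = 1 := by
  have h1 : tup0 .z1 0 = 1 := rfl
  have h2 : tup1 .z1 0 = 0 := rfl
  unfold Tup
  rw [h1, h2, map_one, map_zero, mul_zero, add_zero]

theorem Tup_w1_zero (x : ℚ_[2]) : Tup ℚ_[2] x .w1 0 = 1 := by
  have h1 : tup0 .w1 0 = 1 := rfl
  have h2 : tup1 .w1 0 = 0 := rfl
  unfold Tup
  rw [h1, h2, map_one, map_zero, mul_zero, add_zero]

theorem Tup_w1_six (x : ℚ_[2]) : Tup ℚ_[2] x .w1 6 = ev1 serE := by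
  have h1 : tup0 .w1 6 = serB2 := rfl
  have h2 : tup1 .w1 6 = 0 := rfl
  unfold Tup
  rw [h1, h2, map_zero, mul_zero, add_zero, ev1_E]; rfl

theorem Tup_w1_seven (x : ℚ_[2]) : Tup ℚ_[2] x .w1 7 = ev1 serE7 := by
  have h1 : tup0 .w1 7 = tw serB2 := rfl
  have h2 : tup1 .w1 7 = 0 := rfl
  unfold Tup
  rw [h1, h2, map_zero, mul_zero, add_zero, ev1_E7]; rfl

theorem Tup_z1_six (x : ℚ_[2]) : Tup ℚ_[2] x .z1 6
    = (1 - X) * binT serE - PowerSeries.C (x - x2) * mp ((1 - X) * serK) := by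
  have h1 : tup0 .z1 6 = (1 - X) * serB := rfl
  have h2 : tup1 .z1 6 = -((1 - X) * serK) := rfl
  have h3 : ∀ f : ℚ⟦X⟧, f.map (algebraMap ℚ ℚ_[2]) = mp f := fun _ => rfl
  unfold Tup
  rw [h1, h2, h3, h3, binT_E, map_neg, map_mul, map_mul, map_sub, map_one, mp_X, map_sub]
  ring

theorem Tup_z1_seven (x : ℚ_[2]) : Tup ℚ_[2] x .z1 7
    = (1 - X) * binT serE7 - PowerSeries.C (x - x2) * mp ((1 - X) * th serK) := by
  have h1 : tup0 .z1 7 = (1 - X) * th serB := rfl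
  have h2 : tup1 .z1 7 = -((1 - X) * th serK) := rfl
  have h3 : ∀ f : ℚ⟦X⟧, f.map (algebraMap ℚ ℚ_[2]) = mp f := fun _ => rfl
  have h4 : thK (mp serB - PowerSeries.C x2 * mp serK)
      = mp (th serB) - PowerSeries.C x2 * mp (th serK) := by
    rw [mp_th, mp_th]
    ext n
    simp only [coeff_thK, map_sub, coeff_C_mul]
    ring
  unfold Tup
  rw [h1, h2, h3, h3, binT_E7, binT_E, h4, map_neg, map_mul, map_mul, map_sub, map_one, mp_X,
    map_sub]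
  ring

/-! ### the entries -/

theorem norm_sub_le_max' (a b : ℚ_[2]) : ‖a - b‖ ≤ max ‖a‖ ‖b‖ := by
  rw [sub_eq_add_neg]
  have := IsUltrametricDist.norm_add_le_max a (-b)
  rwa [norm_neg] at this

theorem gb_of_bq {c : ℝ} {f : ℚ_[2]⟦X⟧} (h : H721.BQ c f) (N : ℕ) : GB 4 N c f := fun n _ => h n

/-- entries at `z1` -/
theorem entry_z {n0 n1 n2 D i : ℕ} (hD : n0 + n1 + n2 ≤ D) (hi : i < D) (x y : ℚ_[2]) (k : ℕ)
    (j : Fin 8) (hj : j ≠ 0) {G : ℚ_[2]⟦X⟧} {Cg : ℝ} (hG : Dc Cg G) {M : ℚ⟦X⟧}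
    (hM : GB 4 k 1 (mp M))
    (hT : Tup ℚ_[2] x .z1 j = (1 - X) * binT G - PowerSeries.C y * mp M) :
    ‖rowVal ℚ_[2] D x .z1 k (krow j (H721.hm (1 : ℚ_[2]) (1 / 2) 0 n0 n1 n2 i)
      (tS D n0 n1 n2 i G))‖
      ≤ max ((2 : ℝ) ^ (H721.Apot n0 n1 n2 i + H721.Wc n0 n1 n2 3) * Cg
          * (((D : ℝ) + 1) ^ 2 * (1 / 8) ^ D))
        ((2 : ℝ) ^ (H721.Apot n0 n1 n2 i + H721.Wc n0 n1 n2 0) * ‖y‖ * 4 ^ k) := by
  have hpos : 0 < D := by omega
  have hp := px_natDegree hD hi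
  have hc : Gp.z1.cusp = 0 := rfl
  rw [rowVal_krow _ _ _ _ _ hj, Tup_z1_zero, mul_one, hT, mul_sub, map_sub, hc, px_comp,
    evP_zero_comp hp]
  have ht : evP ℚ_[2] D 0 (tS D n0 n1 n2 i G)
      = Polynomial.aeval xz (trunc D ((px n0 n1 n2 i : ℚ_[2]⟦X⟧) * G)) :=
    evP_zero_comp (trunc_natDegree hpos _)
  rw [ht]
  have h1 := tail_z (px_gp n0 n1 n2 i) hG D k
  rw [map_sub] at h1
  have h2 : ‖coeff k (Polynomial.aeval xz (px n0 n1 n2 i) * (PowerSeries.C y * mp M))‖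
      ≤ (2 : ℝ) ^ (H721.Apot n0 n1 n2 i + H721.Wc n0 n1 n2 0) * ‖y‖ * 4 ^ k := by
    have hb := bq_evP n0 n1 n2 D i hD hi 0
    have he : EW D n0 n1 n2 i 0 = H721.Apot n0 n1 n2 i + H721.Wc n0 n1 n2 0 := by
      unfold EW; simp
    rw [he, px_comp, evP_zero_comp hp] at hb
    have hb2 := gb_of_bq hb k
    have h3 := hb2.mul (by norm_num) (hM.C_mul (by norm_num) y)
    have h4 := h3 k le_rfl
    rwa [mul_one] at h4
  have e : ∀ a b c : ℚ_[2], a - b - c = (a - c) - b := fun a b c => by ring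
  rw [e]
  exact (norm_sub_le_max' _ _).trans (max_le_max h1 h2)

/-- entries at `w1` -/
theorem entry_w {n0 n1 n2 D i : ℕ} (hD : n0 + n1 + n2 ≤ D) (hi : i < D) (x : ℚ_[2]) (k : ℕ)
    (j : Fin 8) (hj : j ≠ 0) {G : ℚ_[2]⟦X⟧} {Cg : ℝ} (hG : Dc Cg G)
    (hT : Tup ℚ_[2] x .w1 j = ev1 G) :
    ‖rowVal ℚ_[2] D x .w1 k (krow j (H721.hm (1 : ℚ_[2]) (1 / 2) 0 n0 n1 n2 i)
      (tS D n0 n1 n2 i G))‖
      ≤ (2 : ℝ) ^ (H721.Apot n0 n1 n2 i + H721.Wc n0 n1 n2 3) * Cg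
          * ((D : ℝ) + 1) ^ 2 * (1 / 4) ^ D := by
  have hpos : 0 < D := by omega
  have hp := px_natDegree hD hi
  have hc : Gp.w1.cusp = 1 := rfl
  rw [rowVal_krow _ _ _ _ _ hj, Tup_w1_zero, mul_one, hT, hc, px_comp, evP_one_comp hp]
  have ht : evP ℚ_[2] D 1 (tS D n0 n1 n2 i G)
      = Polynomial.aeval xw (trunc D ((px n0 n1 n2 i : ℚ_[2]⟦X⟧) * G)) :=
    evP_one_comp (trunc_natDegree hpos _)
  rw [ht, ← map_sub]
  exact tail_w (px_gp n0 n1 n2 i) hG D k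

theorem gb_omX_mul {N : ℕ} {f : ℚ⟦X⟧} (h : GB 4 N 1 (mp f)) : GB 4 N 1 (mp ((1 - X) * f)) := by
  rw [map_mul]
  have := (gb_one_sub_X (ρ := 4) (by norm_num) (N := N)).mul (by norm_num) h
  rwa [one_mul] at this

end Vale.Agent.P030.H914
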