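import Vale.Agent.P030.H914.KRows
import Vale.Agent.P030.H869.KIn

/-!
# P030, the 2-adic place: the K-rows of the frozen design (`KZW`, hence `KRowIn`)
-/

namespace Vale.Agent.P030.H914

open PowerSeries Finset Vale.Agent.P030.T Vale.Agent.P030.H869
open Vale.Agent.P030.H579 (parA hF ap wc kb KRowIn nA nB nC n_le)

theorem rpow_ap_wc (s i : ℕ) (c : Fin 4) : (2 : ℝ) ^ (ap s i + wc s c)
    = (2 : ℝ) ^ (H721.Apot (nA s) (nB s) (nC s) i + H721.Wc (nA s) (nB s) (nC s) c) := by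
  unfold ap wc
  rw [← Int.cast_add, Real.rpow_intCast]

theorem rpow_z (s i k : ℕ) : (2 : ℝ) ^ (ap s i + wc s 0 + 2 * k)
    = (2 : ℝ) ^ (H721.Apot (nA s) (nB s) (nC s) i + H721.Wc (nA s) (nB s) (nC s) 0) * 4 ^ k := by
  rw [Real.rpow_add two_pos, rpow_ap_wc, Real.rpow_mul two_pos.le, Real.rpow_natCast]
  norm_num

theorem rpow_81 (s i : ℕ) : (2 : ℝ) ^ (ap s i + wc s 3 - 81 * s)
    = (2 : ℝ) ^ (H721.Apot (nA s) (nB s) (nC s) i + H721.Wc (nA s) (nB s) (nC s) 3)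
      * (1 / 8) ^ (27 * s) := by
  rw [Real.rpow_sub two_pos, rpow_ap_wc]
  have e : (2 : ℝ) ^ (81 * (s : ℝ)) = 8 ^ (27 * s) := by
    have : (81 * (s : ℝ)) = ((81 * s : ℕ) : ℝ) := by push_cast; ring
    rw [this, Real.rpow_natCast]
    have h8 : (8 : ℝ) = 2 ^ 3 := by norm_num
    rw [h8, ← pow_mul]
    congr 1; ring
  rw [e, one_div, inv_pow, div_eq_mul_inv]

theorem rpow_54 (s i : ℕ) : (2 : ℝ) ^ (ap s i + wc s 3 - 54 * s)
    = (2 : ℝ) ^ (H721.Apot (nA s) (nB s) (nC s) i + H721.Wc (nA s) (nB s) (nC s) 3)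
      * (1 / 4) ^ (27 * s) := by
  rw [Real.rpow_sub two_pos, rpow_ap_wc]
  have e : (2 : ℝ) ^ (54 * (s : ℝ)) = 4 ^ (27 * s) := by
    have : (54 * (s : ℝ)) = ((54 * s : ℕ) : ℝ) := by push_cast; ring
    rw [this, Real.rpow_natCast]
    have h4 : (4 : ℝ) = 2 ^ 2 := by norm_num
    rw [h4, ← pow_mul]
    congr 1; ring
  rw [e, one_div, inv_pow, div_eq_mul_inv]

theorem sq_le (s n : ℕ) (hn : n + 1 = 27 * s) :
    (((n + 1 : ℕ) : ℝ) + 1) ^ 2 ≤ 729 * ((s : ℝ) + 1) ^ 2 := by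
  have h : (((n + 1 : ℕ) : ℝ)) = 27 * s := by exact_mod_cast hn
  rw [h]
  have hs : (0 : ℝ) ≤ s := Nat.cast_nonneg s
  nlinarith

/-- **the entries of the K-rows at `z1` and `w1`** -/
theorem kzw (c0 : ℕ) : KZW c0 := by
  intro x
  set y : ℚ_[2] := algebraMap ℚ ℚ_[2] x - x2 with hy
  refine ⟨256 * 729 + ‖y‖, 2, by positivity, fun s hs n hn => ?_⟩
  have hD : nA s + nB s + nC s ≤ n + 1 := by rw [hn]; exact n_le s
  have hs0 : (0 : ℝ) ≤ s := Nat.cast_nonneg s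
  have h1s : (1 : ℝ) ≤ ((s : ℝ) + 1) ^ 2 := one_le_pow₀ (by linarith)
  have hsq := sq_le s n hn
  have hy0 := norm_nonneg y
  -- the two conversions
  have convz : ∀ (i k : ℕ) (v : ℝ) (Cg : ℝ), 0 ≤ Cg → Cg ≤ 256 →
      v ≤ max ((2 : ℝ) ^ (H721.Apot (nA s) (nB s) (nC s) i + H721.Wc (nA s) (nB s) (nC s) 3) * Cg
          * ((((n + 1 : ℕ) : ℝ) + 1) ^ 2 * (1 / 8) ^ (n + 1)))
        ((2 : ℝ) ^ (H721.Apot (nA s) (nB s) (nC s) i + H721.Wc (nA s) (nB s) (nC s) 0) * ‖y‖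
          * 4 ^ k) →
      v ≤ (256 * 729 + ‖y‖) * ((s : ℝ) + 1) ^ 2 * kb s i k .z1 := by
    intro i k v Cg hC0 hC1 hv
    have hkb : kb s i k .z1 = max ((2 : ℝ) ^ (ap s i + wc s 0 + 2 * k))
      ((2 : ℝ) ^ (ap s i + wc s 3 - 81 * s)) := rfl
    rw [hkb, rpow_z, rpow_81]
    set A := (2 : ℝ) ^ (H721.Apot (nA s) (nB s) (nC s) i + H721.Wc (nA s) (nB s) (nC s) 3) with hA
    set B := (2 : ℝ) ^ (H721.Apot (nA s) (nB s) (nC s) i + H721.Wc (nA s) (nB s) (nC s) 0) with hB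
    have hA0 : 0 < A := by positivity
    have hB0 : 0 < B := by positivity
    refine hv.trans (max_le ?_ ?_)
    · rw [hn] at hsq ⊢
      calc A * Cg * ((((27 * s : ℕ) : ℝ) + 1) ^ 2 * (1 / 8) ^ (27 * s))
          ≤ A * 256 * ((729 * ((s : ℝ) + 1) ^ 2) * (1 / 8) ^ (27 * s)) := by gcongr
        _ = (256 * 729) * ((s : ℝ) + 1) ^ 2 * (A * (1 / 8) ^ (27 * s)) := by ring
        _ ≤ (256 * 729 + ‖y‖) * ((s : ℝ) + 1) ^ 2
            * max (B * 4 ^ k) (A * (1 / 8) ^ (27 * s)) := by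
            refine mul_le_mul ?_ (le_max_right _ _) (by positivity) (by positivity)
            exact mul_le_mul_of_nonneg_right (by linarith) (by positivity)
    · calc B * ‖y‖ * 4 ^ k = ‖y‖ * 1 * (B * 4 ^ k) := by ring
        _ ≤ (256 * 729 + ‖y‖) * ((s : ℝ) + 1) ^ 2
            * max (B * 4 ^ k) (A * (1 / 8) ^ (27 * s)) := by
            refine mul_le_mul ?_ (le_max_left _ _) (by positivity) (by positivity)
            exact mul_le_mul (by linarith) h1s zero_le_one (by positivity)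
  have convw : ∀ (i k : ℕ) (v : ℝ) (Cg : ℝ), 0 ≤ Cg → Cg ≤ 256 →
      v ≤ (2 : ℝ) ^ (H721.Apot (nA s) (nB s) (nC s) i + H721.Wc (nA s) (nB s) (nC s) 3) * Cg
          * (((n + 1 : ℕ) : ℝ) + 1) ^ 2 * (1 / 4) ^ (n + 1) →
      v ≤ (256 * 729 + ‖y‖) * ((s : ℝ) + 1) ^ 2 * kb s i k .w1 := by
    intro i k v Cg hC0 hC1 hv
    have hkb : kb s i k .w1 = (2 : ℝ) ^ (ap s i + wc s 3 - 54 * s) := rfl
    rw [hkb, rpow_54]
    set A := (2 : ℝ) ^ (H721.Apot (nA s) (nB s) (nC s) i + H721.Wc (nA s) (nB s) (nC s) 3) with hA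
    have hA0 : 0 < A := by positivity
    refine hv.trans ?_
    rw [hn] at hsq ⊢
    calc A * Cg * (((27 * s : ℕ) : ℝ) + 1) ^ 2 * (1 / 4) ^ (27 * s)
        ≤ A * 256 * (729 * ((s : ℝ) + 1) ^ 2) * (1 / 4) ^ (27 * s) := by gcongr
      _ = (256 * 729) * ((s : ℝ) + 1) ^ 2 * (A * (1 / 4) ^ (27 * s)) := by ring
      _ ≤ (256 * 729 + ‖y‖) * ((s : ℝ) + 1) ^ 2 * (A * (1 / 4) ^ (27 * s)) := by
          refine mul_le_mul_of_nonneg_right ?_ (by positivity)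
          exact mul_le_mul_of_nonneg_right (by linarith) (by positivity)
  refine ⟨fun i => tS (n + 1) (nA s) (nB s) (nC s) i serE,
    fun i => tS (n + 1) (nA s) (nB s) (nC s) i serE7, fun i k => ⟨fun _ => ⟨?_, ?_⟩,
      fun _ => ⟨?_, ?_⟩⟩⟩
  · refine convz i k _ 4 (by norm_num) (by norm_num) ?_
    exact entry_z hD i.2 (algebraMap ℚ ℚ_[2] x) y k 6 (by decide) dc_E
      (gb_omX_mul (gb_serK k)) (Tup_z1_six _)
  · refine convz i k _ 256 (by norm_num) le_rfl ?_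
    exact entry_z hD i.2 (algebraMap ℚ ℚ_[2] x) y k 7 (by decide) dc_E7
      (gb_omX_mul (gb_th (gb_serK k))) (Tup_z1_seven _)
  · refine convw i k _ 4 (by norm_num) (by norm_num) ?_
    exact entry_w hD i.2 (algebraMap ℚ ℚ_[2] x) k 6 (by decide) dc_E (Tup_w1_six _)
  · refine convw i k _ 256 (by norm_num) le_rfl ?_
    exact entry_w hD i.2 (algebraMap ℚ ℚ_[2] x) k 7 (by decide) dc_E7 (Tup_w1_seven _)

/-- **the K-rows of the frozen design** -/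
theorem kRowIn (c0 : ℕ) : KRowIn c0 := KRowIn_of c0 (kzw c0)

end Vale.Agent.P030.H914
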