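import Vale.Agent.P030.H914.Eval

/-!
# P030, the 2-adic place: products with polynomials, truncations and tails
-/

namespace Vale.Agent.P030.H914

open PowerSeries Finset Vale.Agent.P030.T

/-- `t/(1-t)` -/
noncomputable def xz : ℚ_[2]⟦X⟧ := X * PowerSeries.mk fun _ => (1 : ℚ_[2])

/-- `-(1+t)/2` -/
noncomputable def xw : ℚ_[2]⟦X⟧ := PowerSeries.C (-1 / 2) * (1 + X)

theorem geo_mul : (PowerSeries.mk fun _ => (1 : ℚ_[2]) : ℚ_[2]⟦X⟧) * (1 - X) = 1 :=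
  PowerSeries.mk_one_mul_one_sub_eq_one ℚ_[2]

theorem binT_X (G : ℚ_[2]⟦X⟧) : binT (X * G) = xz * binT G := by
  have h := binT_X_mul G
  have h2 := geo_mul
  unfold xz
  linear_combination (PowerSeries.mk fun _ => (1 : ℚ_[2]) : ℚ_[2]⟦X⟧) * h - binT (X * G) * h2

theorem binT_pow (n : ℕ) (G : ℚ_[2]⟦X⟧) : binT (X ^ n * G) = xz ^ n * binT G := by
  induction n with
  | zero => simp
  | succ n ih => rw [pow_succ', mul_assoc, binT_X, ih, pow_succ']; ring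

theorem binT_poly (p : Polynomial ℚ_[2]) (G : ℚ_[2]⟦X⟧) :
    binT ((p : ℚ_[2]⟦X⟧) * G) = Polynomial.aeval xz p * binT G := by
  induction p using Polynomial.induction_on' with
  | add p q hp hq =>
    rw [Polynomial.coe_add, add_mul, binT_add, hp, hq, map_add, add_mul]
  | monomial n a =>
    have e : ((Polynomial.monomial n a : Polynomial ℚ_[2]) : ℚ_[2]⟦X⟧)
        = PowerSeries.C a * X ^ n := by
      rw [← Polynomial.C_mul_X_pow_eq_monomial, Polynomial.coe_mul, Polynomial.coe_C,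
        Polynomial.coe_pow, Polynomial.coe_X]
    rw [e, mul_assoc, binT_C_mul, binT_pow, ← Polynomial.C_mul_X_pow_eq_monomial, map_mul,
      map_pow, Polynomial.aeval_C, Polynomial.aeval_X]
    rw [mul_assoc]; rfl

theorem binT_one : (1 - X) * binT 1 = 1 := by
  have h : binT 1 = PowerSeries.mk fun _ => (1 : ℚ_[2]) := by
    ext n
    rw [coeff_binT, coeff_mk, sum_eq_single 0]
    · simp
    · intro k _ hk
      rw [coeff_one, if_neg hk, mul_zero]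
    · intro h
      exact absurd (mem_range.2 (by omega)) h
  rw [h, mul_comm]; exact geo_mul

/-- value of a polynomial at `c0` -/
theorem binT_coe (p : Polynomial ℚ_[2]) :
    (1 - X) * binT (p : ℚ_[2]⟦X⟧) = Polynomial.aeval xz p := by
  have h := binT_poly p 1
  rw [mul_one] at h
  rw [h, mul_left_comm, binT_one, mul_one]

theorem ev1_pow {C : ℝ} {G : ℚ_[2]⟦X⟧} (hG : Dc C G) (n : ℕ) :
    ev1 (X ^ n * G) = xw ^ n * ev1 G ∧ Dc (8 ^ n * C) (X ^ n * G) := by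
  induction n with
  | zero => simpa using hG
  | succ n ih =>
    obtain ⟨h1, h2⟩ := ih
    refine ⟨?_, ?_⟩
    · rw [pow_succ', mul_assoc, ev1_X_mul h2, h1, pow_succ']
      unfold xw; ring
    · have e : (X : ℚ_[2]⟦X⟧) ^ (n + 1) * G = X * (X ^ n * G) := by ring
      rw [e]
      refine h2.X_mul.mono (le_of_eq ?_)
      ring

theorem ev1_poly {G : ℚ_[2]⟦X⟧} (hG : ∃ C, Dc C G) (p : Polynomial ℚ_[2]) :
    ev1 ((p : ℚ_[2]⟦X⟧) * G) = Polynomial.aeval xw p * ev1 G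
      ∧ ∃ C, Dc C ((p : ℚ_[2]⟦X⟧) * G) := by
  obtain ⟨C0, hC0⟩ := hG
  induction p using Polynomial.induction_on' with
  | add p q hp hq =>
    obtain ⟨h1, C1, d1⟩ := hp
    obtain ⟨h2, C2, d2⟩ := hq
    rw [Polynomial.coe_add, add_mul]
    refine ⟨?_, max C1 C2, ?_⟩
    · rw [ev1_add d1 d2, h1, h2, map_add, add_mul]
    · exact (d1.mono (le_max_left _ _)).add (d2.mono (le_max_right _ _))
  | monomial n a =>
    have e : ((Polynomial.monomial n a : Polynomial ℚ_[2]) : ℚ_[2]⟦X⟧)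
        = PowerSeries.C a * X ^ n := by
      rw [← Polynomial.C_mul_X_pow_eq_monomial, Polynomial.coe_mul, Polynomial.coe_C,
        Polynomial.coe_pow, Polynomial.coe_X]
    obtain ⟨h1, h2⟩ := ev1_pow hC0 n
    rw [e, mul_assoc]
    refine ⟨?_, _, h2.C_mul a⟩
    rw [ev1_C_mul, h1, ← Polynomial.C_mul_X_pow_eq_monomial, map_mul,
      map_pow, Polynomial.aeval_C, Polynomial.aeval_X, mul_assoc]
    rfl

theorem dc_one : Dc 1 (1 : ℚ_[2]⟦X⟧) := fun k => by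
  rw [coeff_one]
  split_ifs with h
  · subst h; simp
  · rw [norm_zero]; positivity

/-- value of a polynomial at `c1` -/
theorem ev1_coe (p : Polynomial ℚ_[2]) : ev1 (p : ℚ_[2]⟦X⟧) = Polynomial.aeval xw p := by
  have h := (ev1_poly ⟨1, dc_one⟩ p).1
  rwa [mul_one, ev1_one, mul_one] at h

/-! ### truncation -/

/-- the tail of `G` from the order `D` on -/
theorem coeff_sub_trunc (D : ℕ) (G : ℚ_[2]⟦X⟧) (k : ℕ) :
    coeff k (G - (trunc D G : ℚ_[2]⟦X⟧)) = if k < D then 0 else coeff k G := by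
  rw [map_sub, Polynomial.coeff_coe, coeff_trunc]
  split_ifs <;> simp

theorem dc_sub_trunc {C : ℝ} {G : ℚ_[2]⟦X⟧} (hG : Dc C G) (D : ℕ) :
    Dc C (G - (trunc D G : ℚ_[2]⟦X⟧)) := fun k => by
  have hC := hG.nonneg
  rw [coeff_sub_trunc]
  split_ifs
  · rw [norm_zero]; positivity
  · exact hG k

theorem sq_eighth_anti {k n : ℕ} (h : k ≤ n) :
    ((n : ℝ) + 1) ^ 2 * (1 / 8) ^ n ≤ ((k : ℝ) + 1) ^ 2 * (1 / 8) ^ k := by
  have h1 := sq_quarter_anti h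
  have e : ∀ m : ℕ, ((1 / 8 : ℝ)) ^ m = (1 / 4) ^ m * (1 / 2) ^ m := fun m => by
    rw [← mul_pow]; norm_num
  rw [e, e, ← mul_assoc, ← mul_assoc]
  refine mul_le_mul h1 ?_ (by positivity) (by positivity)
  exact pow_le_pow_of_le_one (by norm_num) (by norm_num) h

theorem tail_norm {C : ℝ} {G : ℚ_[2]⟦X⟧} (hG : Dc C G) (D k : ℕ) :
    ‖coeff k (G - (trunc D G : ℚ_[2]⟦X⟧))‖ ≤ C * (((D : ℝ) + 1) ^ 2 * (1 / 8) ^ D) := by
  have hC := hG.nonneg
  rw [coeff_sub_trunc]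
  split_ifs with h
  · rw [norm_zero]; positivity
  · refine (hG k).trans ?_
    rw [mul_assoc]
    exact mul_le_mul_of_nonneg_left (sq_eighth_anti (not_lt.1 h)) hC

/-- **tails at `c0`** -/
theorem tail_z {H C : ℝ} {p : Polynomial ℚ_[2]} {G : ℚ_[2]⟦X⟧}
    (hp : ∀ i, ‖p.coeff i‖ ≤ H * (1 / 8) ^ i) (hG : Dc C G) (D k : ℕ) :
    ‖coeff k (Polynomial.aeval xz p * ((1 - X) * binT G)
      - Polynomial.aeval xz (trunc D ((p : ℚ_[2]⟦X⟧) * G)))‖
      ≤ H * C * (((D : ℝ) + 1) ^ 2 * (1 / 8) ^ D) := by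
  have hd : Dc (H * C) ((p : ℚ_[2]⟦X⟧) * G) := Dc.mul (fun i => by
    rw [Polynomial.coeff_coe]; exact hp i) hG
  have e : Polynomial.aeval xz p * ((1 - X) * binT G)
      - Polynomial.aeval xz (trunc D ((p : ℚ_[2]⟦X⟧) * G))
      = (1 - X) * binT ((p : ℚ_[2]⟦X⟧) * G - (trunc D ((p : ℚ_[2]⟦X⟧) * G) : ℚ_[2]⟦X⟧)) := by
    rw [binT_sub, binT_poly, mul_sub, binT_coe]; ring
  rw [e]
  have h0 := hd.nonneg
  exact binT_tail (by positivity) (fun j => tail_norm hd D j) k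

/-- **tails at `c1`** -/
theorem tail_w {H C : ℝ} {p : Polynomial ℚ_[2]} {G : ℚ_[2]⟦X⟧}
    (hp : ∀ i, ‖p.coeff i‖ ≤ H * (1 / 8) ^ i) (hG : Dc C G) (D k : ℕ) :
    ‖coeff k (Polynomial.aeval xw p * ev1 G
      - Polynomial.aeval xw (trunc D ((p : ℚ_[2]⟦X⟧) * G)))‖
      ≤ H * C * ((D : ℝ) + 1) ^ 2 * (1 / 4) ^ D := by
  have hd : Dc (H * C) ((p : ℚ_[2]⟦X⟧) * G) := Dc.mul (fun i => by
    rw [Polynomial.coeff_coe]; exact hp i) hG
  obtain ⟨h1, -⟩ := ev1_poly ⟨C, hG⟩ p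
  obtain ⟨-, C2, h2⟩ := ev1_poly ⟨1, dc_one⟩ (trunc D ((p : ℚ_[2]⟦X⟧) * G))
  rw [mul_one] at h2
  rw [← h1, ← ev1_coe, ← ev1_sub hd h2]
  exact ev1_tail (dc_sub_trunc hd D) D (fun j hj => by rw [coeff_sub_trunc, if_pos hj]) k

end Vale.Agent.P030.H914
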