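import Vale.Agent.P030.H914.Gauss

/-!
# P030, the 2-adic place: growth of the series of `T/Defs`
-/

namespace Vale.Agent.P030.H914

open PowerSeries Finset Vale.Agent.P030.T

theorem norm_ratCast_int (z : ℤ) : ‖(((z : ℚ)) : ℚ_[2])‖ ≤ 1 := by
  have : (((z : ℚ)) : ℚ_[2]) = (z : ℚ_[2]) := by push_cast; rfl
  rw [this]; exact Padic.norm_int_le_one z

theorem norm_ratCast_nat (z : ℕ) : ‖(((z : ℚ)) : ℚ_[2])‖ ≤ 1 := by
  have : (((z : ℚ)) : ℚ_[2]) = (z : ℚ_[2]) := by push_cast; rfl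
  rw [this]; exact norm_nat_le z

theorem norm_four_pow_inv (n : ℕ) : ‖((4 : ℚ_[2]) ^ n)⁻¹‖ = 4 ^ n := by
  have h4 : ‖(4 : ℚ_[2])‖ = 1 / 4 := by
    have : (4 : ℚ_[2]) = 2 * 2 := by norm_num
    rw [this, norm_mul, norm_two]; norm_num
  rw [norm_inv, norm_pow, h4]
  rw [one_div, inv_pow, inv_inv]

/-- `K` grows like `4 ^ n` -/
theorem gb_serK (N : ℕ) : GB 4 N 1 (mp serK) := fun n _ => by
  rw [coeff_mp]
  simp only [serK, coeff_mk]
  split_ifs with h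
  · push_cast
    rw [div_eq_mul_inv, norm_mul, norm_pow, norm_four_pow_inv]
    refine mul_le_mul_of_nonneg_right ?_ (by positivity)
    exact pow_le_one₀ (norm_nonneg _) (norm_nat_le _)
  · simp

theorem gb_th {ρ : ℝ} {N : ℕ} {C : ℝ} {f : ℚ⟦X⟧} (h : GB ρ N C (mp f)) :
    GB ρ N C (mp (th f)) := fun n hn => by
  have := h n hn
  rw [coeff_mp] at this ⊢
  simp only [th, coeff_mk]
  push_cast
  rw [norm_mul]
  calc ‖(n : ℚ_[2])‖ * ‖((coeff n f : ℚ) : ℚ_[2])‖ ≤ 1 * ‖((coeff n f : ℚ) : ℚ_[2])‖ :=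
        mul_le_mul_of_nonneg_right (norm_nat_le n) (norm_nonneg _)
    _ ≤ _ := by rw [one_mul]; exact this

theorem gb_dd {ρ : ℝ} {N : ℕ} {C : ℝ} {f : ℚ⟦X⟧} (h : GB ρ (N + 1) C (mp f)) :
    GB ρ N (C * ρ) (mp (dd f)) := fun n hn => by
  have := h (n + 1) (by omega)
  rw [coeff_mp] at this ⊢
  simp only [dd, coeff_mk]
  push_cast
  rw [norm_mul]
  have e : (n : ℚ_[2]) + 1 = ((n + 1 : ℕ) : ℚ_[2]) := by push_cast; rfl
  rw [e]
  calc ‖((n + 1 : ℕ) : ℚ_[2])‖ * ‖((coeff (n + 1) f : ℚ) : ℚ_[2])‖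
      ≤ 1 * ‖((coeff (n + 1) f : ℚ) : ℚ_[2])‖ :=
        mul_le_mul_of_nonneg_right (norm_nat_le _) (norm_nonneg _)
    _ ≤ C * ρ ^ (n + 1) := by rw [one_mul]; exact this
    _ = C * ρ * ρ ^ n := by rw [pow_succ]; ring

theorem mp_sc (q : ℚ) (f : ℚ⟦X⟧) : mp (sc q f) = PowerSeries.C (q : ℚ_[2]) * mp f := by
  simp [sc, mp]

theorem mp_X : mp (X : ℚ⟦X⟧) = X := by simp [mp]

theorem mp_C (q : ℚ) : mp (PowerSeries.C q) = PowerSeries.C (q : ℚ_[2]) := by simp [mp]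

theorem gb_sc {ρ : ℝ} (hρ : 0 ≤ ρ) {N : ℕ} {C : ℝ} {f : ℚ⟦X⟧} (q : ℚ) (h : GB ρ N C (mp f)) :
    GB ρ N (‖(q : ℚ_[2])‖ * C) (mp (sc q f)) := by
  rw [mp_sc]; exact h.C_mul hρ _

theorem gb_one_sub_X {ρ : ℝ} (hρ : 1 ≤ ρ) {N : ℕ} : GB ρ N 1 (mp (1 - X)) := by
  rw [map_sub, map_one, mp_X]
  exact (GB.one (by linarith)).sub (GB.X_one hρ)

theorem gb_one_add_X {ρ : ℝ} (hρ : 1 ≤ ρ) {N : ℕ} : GB ρ N 1 (mp (1 + X)) := by
  rw [map_add, map_one, mp_X]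
  exact (GB.one (by linarith)).add (GB.X_one hρ)

theorem norm_half : ‖(((1 / 2 : ℚ)) : ℚ_[2])‖ = 2 := by
  push_cast
  rw [norm_div, norm_one, norm_two]; norm_num

theorem gb_tw {ρ : ℝ} (hρ : 1 ≤ ρ) {N : ℕ} {C : ℝ} {f : ℚ⟦X⟧} (h : GB ρ (N + 1) C (mp f)) :
    GB ρ N (2 * (C * ρ)) (mp (tw f)) := by
  have h1 : GB ρ (N + 1) (1 * C) (mp ((1 - X) * f)) := by
    rw [map_mul]; exact (gb_one_sub_X hρ).mul (by linarith) h
  rw [one_mul] at h1
  have h2 := gb_dd h1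
  have h3 : GB ρ N (1 * (C * ρ)) (mp ((1 + X) * dd ((1 - X) * f))) := by
    rw [map_mul]; exact (gb_one_add_X hρ).mul (by linarith) h2
  rw [one_mul] at h3
  have h4 := gb_sc (by linarith) (1 / 2) h3
  rw [norm_half] at h4
  exact h4

theorem norm_inv_natCast_le (n : ℕ) : ‖((n : ℚ_[2]))⁻¹‖ ≤ n := by
  rcases eq_or_ne n 0 with rfl | hn
  · simp
  · exact norm_inv_nat_le hn

/-- the constants of `M` -/
theorem norm_cMs (n : ℕ) : ‖((cMs n : ℚ) : ℚ_[2])‖ ≤ n + 1 := by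
  unfold cMs
  push_cast
  refine norm_sum_le_of _ _ (by positivity) fun j hj => ?_
  have hjn : j < n / 2 := mem_range.1 hj
  have e1 : (2 * (j : ℚ_[2]) + 1) = ((2 * j + 1 : ℕ) : ℚ_[2]) := by push_cast; ring
  have e2 : (2 * (j : ℚ_[2]) + 2) = ((2 * j + 2 : ℕ) : ℚ_[2]) := by push_cast; ring
  have hb : ∀ m : ℕ, m ≤ n → ‖(2 : ℚ_[2]) / (m : ℚ_[2])‖ ≤ (n : ℝ) + 1 := by
    intro m hm
    rw [div_eq_mul_inv, norm_mul, norm_two]
    have h1 := norm_inv_natCast_le m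
    have h2 : (m : ℝ) ≤ n := by exact_mod_cast hm
    have h3 := norm_nonneg ((m : ℚ_[2]))⁻¹
    linarith
  rw [e1, e2]
  rw [sub_eq_add_neg]
  refine (IsUltrametricDist.norm_add_le_max _ _).trans (max_le ?_ ?_)
  · exact hb _ (by omega)
  · rw [norm_neg]; exact hb _ (by omega)

theorem gb_serM (N : ℕ) : GB 4 N (N + 1) (mp serM) := fun n hn => by
  have h1 := gb_serK N n hn
  rw [coeff_mp] at h1 ⊢
  simp only [serM, coeff_mk]
  push_cast
  rw [norm_mul, mul_comm]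
  have h2 := norm_cMs n
  have h3 : (n : ℝ) ≤ N := by exact_mod_cast hn
  rw [one_mul] at h1
  exact mul_le_mul (h2.trans (by linarith)) h1 (norm_nonneg _) (by positivity)

/-- a constant times a series whose coefficients are at most `n` -/
theorem gb_log {N : ℕ} {f : ℚ⟦X⟧} (h : ∀ n, ‖((coeff n f : ℚ) : ℚ_[2])‖ ≤ n) :
    GB 1 N (N + 1) (mp f) := fun n hn => by
  rw [coeff_mp, one_pow, mul_one]
  have h3 : (n : ℝ) ≤ N := by exact_mod_cast hn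
  exact (h n).trans (by linarith)

theorem gb_lgm (N : ℕ) : GB 1 N (N + 1) (mp lgm) := gb_log fun n => by
  simp only [lgm, coeff_mk]
  split_ifs with h
  · simp [h]
  · push_cast
    rw [one_div]; exact norm_inv_natCast_le n

theorem gb_lgp (N : ℕ) : GB 1 N (N + 1) (mp lgp) := gb_log fun n => by
  simp only [lgp, coeff_mk]
  split_ifs with h
  · simp [h]
  · push_cast
    rw [div_eq_mul_inv, norm_mul, norm_pow, norm_neg, norm_one, one_pow, one_mul]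
    exact norm_inv_natCast_le n

theorem gb_li2 (N : ℕ) : GB 1 N ((N + 1) ^ 2) (mp li2) := fun n hn => by
  rw [coeff_mp, one_pow, mul_one]
  simp only [li2, coeff_mk]
  have h3 : (n : ℝ) ≤ N := by exact_mod_cast hn
  split_ifs with h
  · simp; positivity
  · push_cast
    rw [one_div, norm_inv, norm_pow, ← inv_pow, ← norm_inv]
    exact pow_le_pow_left₀ (norm_nonneg _) ((norm_inv_natCast_le n).trans (by linarith)) 2

end Vale.Agent.P030.H914
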